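import Vale.Agent.Lib.P078.Proj

/-!
# P078: random colourings of a fine partition
-/

namespace Vale.Agent.P078

open Finset

section comb

variable {ι : Type} [Fintype ι] [DecidableEq ι] {r : ℕ}

/-- centred indicator of `c I = c J` -/
noncomputable def ind (c : ι → Fin r) (a : ι × ι) : ℝ :=
  if a.1 = a.2 then 0 else (if c a.1 = c a.2 then 1 else 0) - 1 / (r : ℝ)

theorem sum_update (h : (ι → Fin r) → ℝ) (I : ι) :
    ∑ c : ι → Fin r, ∑ k : Fin r, h (Function.update c I k) = r * ∑ c, h c := by
  classical
  let f : (ι → Fin r) × Fin r → (ι → Fin r) × Fin r := fun q => (Function.update q.1 I q.2, q.1 I)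
  have hf : Function.Involutive f := by
    rintro ⟨c, k⟩
    simp [f]
  have h1 : ∑ q : (ι → Fin r) × Fin r, h (f q).1 = ∑ q : (ι → Fin r) × Fin r, h q.1 :=
    Equiv.sum_comp (hf.toPerm f) (fun q => h q.1)
  rw [Fintype.sum_prod_type, Fintype.sum_prod_type] at h1
  simp only [f] at h1
  rw [h1]
  simp only [Finset.sum_const, Finset.card_univ, Fintype.card_fin, nsmul_eq_mul]
  rw [← Finset.mul_sum]

theorem ind_orth (hr : 0 < r) (I J : ι) (hIJ : I ≠ J) (b : ι × ι) (h1 : I ≠ b.1) (h2 : I ≠ b.2) :
    ∑ c : ι → Fin r, ind c (I, J) * ind c b = 0 ∧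
      ∑ c : ι → Fin r, ind c (J, I) * ind c b = 0 := by
  have hr' : (r : ℝ) ≠ 0 := by positivity
  have hb : ∀ (c : ι → Fin r) (k : Fin r), ind (Function.update c I k) b = ind c b := by
    intro c k
    unfold ind
    rw [Function.update_of_ne h1.symm, Function.update_of_ne h2.symm]
  constructor
  · have h := sum_update (fun c : ι → Fin r => ind c (I, J) * ind c b) I
    have h3 : ∀ c : ι → Fin r, ∑ k : Fin r,
        ind (Function.update c I k) (I, J) * ind (Function.update c I k) b = 0 := by
      intro c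
      simp only [hb, ← Finset.sum_mul]
      have : ∑ k : Fin r, ind (Function.update c I k) (I, J) = 0 := by
        unfold ind
        simp only [if_neg hIJ, Function.update_self, Function.update_of_ne hIJ.symm]
        rw [Finset.sum_sub_distrib, Finset.sum_ite_eq']
        simp
        field_simp
        ring
      rw [this, zero_mul]
    simp only [h3, Finset.sum_const_zero] at h
    exact (mul_eq_zero.1 h.symm).resolve_left hr'
  · have h := sum_update (fun c : ι → Fin r => ind c (J, I) * ind c b) I
    have h3 : ∀ c : ι → Fin r, ∑ k : Fin r,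
        ind (Function.update c I k) (J, I) * ind (Function.update c I k) b = 0 := by
      intro c
      simp only [hb, ← Finset.sum_mul]
      have : ∑ k : Fin r, ind (Function.update c I k) (J, I) = 0 := by
        unfold ind
        simp only [if_neg hIJ.symm, Function.update_self, Function.update_of_ne hIJ.symm]
        rw [Finset.sum_sub_distrib, Finset.sum_ite_eq]
        simp
        field_simp
        ring
      rw [this, zero_mul]
    simp only [h3, Finset.sum_const_zero] at h
    exact (mul_eq_zero.1 h.symm).resolve_left hr'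

theorem ind_abs (hr : 0 < r) (c : ι → Fin r) (a : ι × ι) : |ind c a| ≤ 1 := by
  have h1 : 1 / (r : ℝ) ≤ 1 := by
    rw [div_le_one (by positivity)]
    exact_mod_cast hr
  have h0 : 0 ≤ 1 / (r : ℝ) := by positivity
  unfold ind
  split_ifs
  · simp
  · rw [abs_le]; constructor <;> linarith
  · rw [abs_le]; constructor <;> linarith

theorem ind_gram (hr : 0 < r) (a b : ι × ι) :
    |∑ c : ι → Fin r, ind c a * ind c b| ≤
      (Fintype.card (ι → Fin r) : ℝ) * ((if b = a then 1 else 0) + (if b = a.swap then 1 else 0)) := by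
  by_cases h0 : b = a ∨ b = a.swap
  · have h1 : (1 : ℝ) ≤ (if b = a then 1 else 0) + (if b = a.swap then 1 else 0) := by
      rcases h0 with h | h
      · rw [if_pos h]
        split_ifs <;> norm_num
      · rw [if_pos h]
        split_ifs <;> norm_num
    calc |∑ c : ι → Fin r, ind c a * ind c b| ≤ ∑ c : ι → Fin r, |ind c a * ind c b| :=
          Finset.abs_sum_le_sum_abs _ _
      _ ≤ ∑ _c : ι → Fin r, (1 : ℝ) := by
          apply Finset.sum_le_sum
          intro c _
          rw [abs_mul]
          have := ind_abs hr c a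
          have := ind_abs hr c b
          have := abs_nonneg (ind c a)
          have := abs_nonneg (ind c b)
          nlinarith
      _ = (Fintype.card (ι → Fin r) : ℝ) := by simp
      _ ≤ _ := le_mul_of_one_le_right (by positivity) h1
  · push Not at h0
    have hz : ∑ c : ι → Fin r, ind c a * ind c b = 0 := by
      obtain ⟨I, J⟩ := a
      obtain ⟨K, L⟩ := b
      by_cases hIJ : I = J
      · subst hIJ
        simp [ind]
      by_cases hKL : K = L
      · subst hKL
        simp [ind]
      have h1 : ¬(K = I ∧ L = J) := by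
        rintro ⟨h, h'⟩; exact h0.1 (by rw [h, h'])
      have h2 : ¬(K = J ∧ L = I) := by
        rintro ⟨h, h'⟩; exact h0.2 (by rw [h, h']; rfl)
      by_cases hI : I ≠ K ∧ I ≠ L
      · exact (ind_orth hr I J hIJ (K, L) hI.1 hI.2).1
      · have hJ : J ≠ K ∧ J ≠ L := by
          by_contra hJ
          rw [not_and_or, not_not, not_not] at hI hJ
          rcases hI with h | h <;> rcases hJ with h' | h'
          · exact hIJ (h.trans h'.symm)
          · exact h1 ⟨h.symm, h'.symm⟩
          · exact h2 ⟨h'.symm, h.symm⟩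
          · exact hIJ (h.trans h'.symm)
        exact (ind_orth hr J I (Ne.symm hIJ) (K, L) hJ.1 hJ.2).2
    rw [hz, abs_zero]
    positivity

theorem second_moment (hr : 0 < r) (z : ι × ι → ℝ) :
    ∑ c : ι → Fin r, (∑ a, ind c a * z a) ^ 2 ≤
      (Fintype.card (ι → Fin r) : ℝ) * (2 * ∑ a, z a ^ 2) := by
  set R := (Fintype.card (ι → Fin r) : ℝ) with hR
  have hR0 : 0 ≤ R := by positivity
  have h1 : ∑ c : ι → Fin r, (∑ a, ind c a * z a) ^ 2
      = ∑ a, ∑ b, z a * z b * ∑ c : ι → Fin r, ind c a * ind c b := by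
    have : ∀ c : ι → Fin r, (∑ a, ind c a * z a) ^ 2
        = ∑ a, ∑ b, z a * z b * (ind c a * ind c b) := by
      intro c
      rw [sq, Finset.sum_mul_sum]
      refine Finset.sum_congr rfl fun a _ => Finset.sum_congr rfl fun b _ => by ring
    simp only [this, Finset.mul_sum]
    rw [Finset.sum_comm]
    refine Finset.sum_congr rfl fun a _ => ?_
    rw [Finset.sum_comm]
  rw [h1]
  have h2 : ∀ a, ∑ b, z a * z b * ∑ c : ι → Fin r, ind c a * ind c b
      ≤ R * (z a ^ 2 + (z a ^ 2 + z a.swap ^ 2) / 2) := by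
    intro a
    have h3 : ∀ b, z a * z b * ∑ c : ι → Fin r, ind c a * ind c b
        ≤ |z a| * |z b| * (R * ((if b = a then 1 else 0) + (if b = a.swap then 1 else 0))) := by
      intro b
      refine (le_abs_self _).trans ?_
      rw [abs_mul, abs_mul]
      gcongr
      exact ind_gram hr a b
    refine (Finset.sum_le_sum fun b _ => h3 b).trans ?_
    have h4 : ∑ b, |z a| * |z b| * (R * ((if b = a then 1 else 0) + (if b = a.swap then 1 else 0)))
        = R * (|z a| * |z a| + |z a| * |z a.swap|) := by
      have : ∀ b, |z a| * |z b| * (R * ((if b = a then (1:ℝ) else 0) + (if b = a.swap then 1 else 0)))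
          = (if b = a then R * |z a| * |z b| else 0) + (if b = a.swap then R * |z a| * |z b| else 0) := by
        intro b
        split_ifs <;> ring
      simp only [this, Finset.sum_add_distrib, Finset.sum_ite_eq', Finset.mem_univ, if_true]
      ring
    rw [h4]
    refine mul_le_mul_of_nonneg_left ?_ hR0
    have h5 := sq_abs (z a)
    have h6 := sq_abs (z a.swap)
    nlinarith [sq_nonneg (|z a| - |z a.swap|)]
  refine (Finset.sum_le_sum fun a _ => h2 a).trans ?_
  rw [← Finset.mul_sum]
  refine mul_le_mul_of_nonneg_left ?_ hR0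
  rw [Finset.sum_add_distrib, ← Finset.sum_div, Finset.sum_add_distrib]
  have h7 : ∑ a : ι × ι, z a.swap ^ 2 = ∑ a : ι × ι, z a ^ 2 :=
    Equiv.sum_comp (Equiv.prodComm ι ι) (fun a => z a ^ 2)
  rw [h7]
  linarith

/-- A good colouring for finitely many families. -/
theorem exists_coloring (hr : 0 < r) {κ : Type*} [Fintype κ] (z : κ → ι × ι → ℝ) :
    ∃ c : ι → Fin r, ∑ k, (∑ a, ind c a * z k a) ^ 2 ≤ 2 * ∑ k, ∑ a, z k a ^ 2 := by
  have : Nonempty (Fin r) := ⟨⟨0, hr⟩⟩
  have h1 : ∑ c : ι → Fin r, ∑ k, (∑ a, ind c a * z k a) ^ 2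
      ≤ ∑ _c : ι → Fin r, 2 * ∑ k, ∑ a, z k a ^ 2 := by
    rw [Finset.sum_comm]
    refine (Finset.sum_le_sum fun k _ => second_moment hr (z k)).trans ?_
    rw [← Finset.mul_sum, ← Finset.mul_sum]
    simp
  obtain ⟨c, -, hc⟩ := Finset.exists_le_of_sum_le Finset.univ_nonempty h1
  exact ⟨c, hc⟩

end comb

variable {H : Type*} [NormedAddCommGroup H] [InnerProductSpace ℂ H] [CompleteSpace H]

/-- colour classes -/
noncomputable def colorClass {ι : Type} [Fintype ι] {r : ℕ} (p : ι → H →L[ℂ] H) (c : ι → Fin r)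
    (k : Fin r) : H →L[ℂ] H := ∑ I, if c I = k then p I else 0

theorem colorClass_partition {A : VonNeumannAlgebra H} {ι : Type} [Fintype ι] {r : ℕ}
    {p : ι → H →L[ℂ] H} (hp : PartOf A 1 p) (c : ι → Fin r) :
    IsPartition A (colorClass p c) := by
  classical
  refine ⟨fun k => ⟨?_, ?_, ?_⟩, ?_, ?_⟩
  · unfold colorClass
    refine sum_mem fun I _ => ?_
    split_ifs
    · exact (hp.1 I).1
    · exact zero_mem _
  · unfold colorClass IsIdempotentElem
    rw [Finset.sum_mul]
    refine Finset.sum_congr rfl fun I _ => ?_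
    rw [Finset.mul_sum, Finset.sum_eq_single I]
    · split_ifs
      · exact (hp.1 I).2.isIdempotentElem
      · simp
    · intro J _ hJ
      split_ifs
      · exact hp.2.1 I J hJ.symm
      all_goals simp
    · intro h; exact absurd (Finset.mem_univ _) h
  · unfold colorClass
    rw [IsSelfAdjoint, star_sum]
    refine Finset.sum_congr rfl fun I _ => ?_
    split_ifs
    · exact (hp.1 I).2.isSelfAdjoint
    · simp
  · intro k l hkl
    unfold colorClass
    rw [Finset.sum_mul]
    refine Finset.sum_eq_zero fun I _ => ?_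
    rw [Finset.mul_sum]
    refine Finset.sum_eq_zero fun J _ => ?_
    split_ifs with h1 h2
    · refine hp.2.1 I J ?_
      rintro rfl
      exact hkl (h1.symm.trans h2)
    all_goals simp
  · unfold colorClass
    rw [Finset.sum_comm]
    have : ∀ I, ∑ k, (if c I = k then p I else 0) = p I := by
      intro I
      rw [Finset.sum_ite_eq]
      simp
    simp only [this]
    exact hp.2.2

theorem pinching_color {A : VonNeumannAlgebra H} {ι : Type} [Fintype ι] [DecidableEq ι] {r : ℕ}
    {p : ι → H →L[ℂ] H} (hp : PartOf A 1 p) (c : ι → Fin r) (x : H →L[ℂ] H) :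
    pinching (colorClass p c) x = (((1 / (r : ℝ) : ℝ)) : ℂ) • x
      + ((1 - 1 / (r : ℝ) : ℝ) : ℂ) • (∑ I, p I * x * p I)
      + ∑ a : ι × ι, ((ind c a : ℝ) : ℂ) • (p a.1 * x * p a.2) := by
  have h1 : pinching (colorClass p c) x
      = ∑ a : ι × ι, (if c a.1 = c a.2 then (1 : ℂ) else 0) • (p a.1 * x * p a.2) := by
    unfold pinching colorClass
    have : ∀ k : Fin r, (∑ I, if c I = k then p I else 0) * x * (∑ J, if c J = k then p J else 0)
        = ∑ a : ι × ι, (if c a.1 = k ∧ c a.2 = k then (1 : ℂ) else 0) • (p a.1 * x * p a.2) := by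
      intro k
      rw [Fintype.sum_prod_type, Finset.sum_mul, Finset.sum_mul]
      refine Finset.sum_congr rfl fun I _ => ?_
      rw [Finset.mul_sum]
      refine Finset.sum_congr rfl fun J _ => ?_
      by_cases h1 : c I = k <;> by_cases h2 : c J = k <;> simp [h1, h2]
    simp only [this]
    rw [Finset.sum_comm]
    refine Finset.sum_congr rfl fun a _ => ?_
    rw [← Finset.sum_smul]
    congr 1
    by_cases h : c a.1 = c a.2
    · rw [if_pos h]
      have : ∀ k, (if c a.1 = k ∧ c a.2 = k then (1 : ℂ) else 0) = if c a.1 = k then 1 else 0 := by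
        intro k
        rw [← h]
        simp
      simp only [this, Finset.sum_ite_eq, Finset.mem_univ, if_true]
    · rw [if_neg h]
      refine Finset.sum_eq_zero fun k _ => ?_
      rw [if_neg]
      rintro ⟨h1, h2⟩
      exact h (h1.trans h2.symm)
  have h2 : x = ∑ a : ι × ι, p a.1 * x * p a.2 := by
    rw [Fintype.sum_prod_type]
    have : ∀ I, ∑ J, p I * x * p J = p I * x := by
      intro I
      rw [← Finset.mul_sum, hp.2.2, mul_one]
    simp only [this]
    rw [← Finset.sum_mul, hp.2.2, one_mul]
  have h3 : ∑ I, p I * x * p I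
      = ∑ a : ι × ι, (if a.1 = a.2 then (1 : ℂ) else 0) • (p a.1 * x * p a.2) := by
    rw [Fintype.sum_prod_type]
    refine Finset.sum_congr rfl fun I _ => ?_
    simp only [ite_smul, one_smul, zero_smul, Finset.sum_ite_eq, Finset.mem_univ, if_true]
  have h4 : (((1 / (r : ℝ) : ℝ)) : ℂ) • x
      = ∑ a : ι × ι, (((1 / (r : ℝ) : ℝ)) : ℂ) • (p a.1 * x * p a.2) := by
    rw [← Finset.smul_sum, ← h2]
  rw [h1, h3, h4]
  rw [Finset.smul_sum, ← Finset.sum_add_distrib, ← Finset.sum_add_distrib]
  refine Finset.sum_congr rfl fun a _ => ?_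
  rw [smul_smul, ← add_smul, ← add_smul]
  congr 1
  unfold ind
  by_cases ha : a.1 = a.2
  · simp [ha]
  · by_cases hcc : c a.1 = c a.2
    · simp [ha, hcc]
    · simp [ha, hcc]

end Vale.Agent.P078
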