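import Mathlib

/-!
# P078: so-paving over maximal abelian subalgebras, definitions
-/

namespace Vale.Agent.P078

variable {H : Type*} [NormedAddCommGroup H] [InnerProductSpace ℂ H] [CompleteSpace H]

/-- The von Neumann algebra of all bounded operators on `H`. -/
noncomputable def full (H : Type*) [NormedAddCommGroup H] [InnerProductSpace ℂ H]
    [CompleteSpace H] : VonNeumannAlgebra H where
  toStarSubalgebra := ⊤
  centralizer_centralizer' := by
    apply Set.eq_univ_of_univ_subset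
    intro x _
    exact Set.subset_centralizer_centralizer (Set.mem_univ x)

/-- `A` is a maximal abelian self-adjoint subalgebra of `M`: it is abelian and contains every
element of `M` which commutes with it. -/
def IsMASA (A M : VonNeumannAlgebra H) : Prop :=
  A ≤ M ∧ (∀ x ∈ A, ∀ y ∈ A, x * y = y * x) ∧
    ∀ x ∈ M, (∀ y ∈ A, x * y = y * x) → x ∈ A

/-- `A` is diffuse: it has no minimal projections. -/
def IsDiffuse (A : VonNeumannAlgebra H) : Prop :=
  ∀ p ∈ A, IsStarProjection p → p ≠ 0 →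
    ∃ e ∈ A, IsStarProjection e ∧ e ≠ 0 ∧ e ≠ p ∧ p * e = e

/-- A partition in `A`: mutually orthogonal projections of `A` with sum `1`. -/
def IsPartition (A : VonNeumannAlgebra H) {r : ℕ} (p : Fin r → H →L[ℂ] H) : Prop :=
  (∀ i, p i ∈ A ∧ IsStarProjection (p i)) ∧ (∀ i j, i ≠ j → p i * p j = 0) ∧ ∑ i, p i = 1

/-- The pinching `∑ p_i x p_i`. -/
noncomputable def pinching {r : ℕ} (p : Fin r → H →L[ℂ] H) (x : H →L[ℂ] H) : H →L[ℂ] H :=
  ∑ i, p i * x * p i

/-- `x` is `(ε, r)` so-pavable over `A` (in `M`). -/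
def SoPavable (A M : VonNeumannAlgebra H) (x : H →L[ℂ] H) (ε : ℝ) (r : ℕ) : Prop :=
  ∀ (F : Finset H) (δ : ℝ), 0 < δ → ∃ (p : Fin r → H →L[ℂ] H) (a q : H →L[ℂ] H),
    IsPartition A p ∧ (a ∈ A ∧ IsSelfAdjoint a ∧ ‖a‖ ≤ ‖x‖) ∧ (q ∈ M ∧ IsStarProjection q) ∧
      (∀ ξ ∈ F, ‖(1 - q) ξ‖ < δ) ∧ ‖q * (pinching p x - a) * q‖ ≤ ε * ‖x‖

/-- The so-paving size `n_{A ⊆ M}(ε)`: the least `r ≥ 1` such that every self-adjoint `x ∈ M` is
`(ε, r)` so-pavable (`⊤` if there is none). -/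
noncomputable def pavingSize (A M : VonNeumannAlgebra H) (ε : ℝ) : ℕ∞ :=
  ⨅ (r : ℕ) (_ : 1 ≤ r ∧ ∀ x ∈ M, IsSelfAdjoint x → SoPavable A M x ε r), (r : ℕ∞)

end Vale.Agent.P078
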