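import Vale.Agent.Lib.P078.Upper

/-!
# P078: exact masses in a diffuse masa of `B(H)`
-/

namespace Vale.Agent.P078

open Finset

variable {H : Type*} [NormedAddCommGroup H] [InnerProductSpace ℂ H] [CompleteSpace H]

theorem proj_idem {e : H →L[ℂ] H} (he : IsStarProjection e) (v : H) : e (e v) = e v := by
  have := congrArg (fun S : H →L[ℂ] H => S v) he.isIdempotentElem.eq
  simpa using this

theorem mem_range_iff {e : H →L[ℂ] H} (he : IsStarProjection e) (v : H) :
    v ∈ e.range ↔ e v = v := by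
  constructor
  · rintro ⟨w, rfl⟩
    exact proj_idem he w
  · intro h
    exact ⟨v, h⟩

theorem range_orth_orth {e : H →L[ℂ] H} (he : IsStarProjection e) : (e.range)ᗮᗮ = e.range := by
  obtain ⟨h, _⟩ := isStarProjection_iff_eq_starProjection_range.1 he
  exact Submodule.orthogonal_orthogonal _

theorem proj_range {g : H →L[ℂ] H} (hgs : IsStarProjection g) :
    (g.range)ᗮᗮ.starProjection = g := by
  ext v
  apply Submodule.eq_starProjection_of_mem_of_inner_eq_zero
  · rw [range_orth_orth hgs]; exact ⟨v, rfl⟩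
  · intro w hw
    rw [range_orth_orth hgs] at hw
    have h6 : g w = w := (mem_range_iff hgs w).1 hw
    rw [inner_sub_left, star_apply hgs, h6, sub_self]

theorem norm_add_proj {f h : H →L[ℂ] H} (hf : IsStarProjection f) (hfh : f * h = 0) (v : H) :
    ‖(f + h) v‖ ^ 2 = ‖f v‖ ^ 2 + ‖h v‖ ^ 2 := by
  have h1 : inner ℂ (f v) (h v) = 0 := by
    have h2 : f (h v) = 0 := by
      have := congrArg (fun S : H →L[ℂ] H => S v) hfh
      simpa using this
    have h3 : inner ℂ (f v) (h v) = inner ℂ v (f (h v)) := star_apply hf v (h v)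
    rw [h3, h2, inner_zero_right]
  change ‖f v + h v‖ ^ 2 = _
  rw [sq, sq, sq]
  exact norm_add_sq_eq_norm_sq_add_norm_sq_of_inner_eq_zero _ _ h1

/-- Exact masses. -/
theorem exact_mass {A : VonNeumannAlgebra H} (hc : A.commutant = A) (hd : IsDiffuse A) (ξ : H)
    (e : H →L[ℂ] H) (heA : e ∈ A) (hes : IsStarProjection e) (t : ℝ) (ht0 : 0 ≤ t)
    (ht : t ≤ ‖e ξ‖ ^ 2) :
    ∃ f ∈ A, IsStarProjection f ∧ e * f = f ∧ ‖f ξ‖ ^ 2 = t := by
  classical
  have ha := masa_comm hc
  have hoo : ∀ (K : Submodule ℂ H) (v : H),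
      Kᗮᗮ.starProjection v = v - Kᗮ.starProjection v := by
    intro K v
    exact Submodule.starProjection_orthogonal_val (K := Kᗮ) v
  set S : Set (Submodule ℂ H) :=
    {K | Inv A K ∧ K ≤ e.range ∧ ‖Kᗮᗮ.starProjection ξ‖ ≤ Real.sqrt t} with hS
  have hbot : (⊥ : Submodule ℂ H) ∈ S := by
    refine ⟨?_, bot_le, ?_⟩
    · intro T _ v hv
      rw [Submodule.mem_bot] at hv ⊢
      rw [hv, map_zero]
    · have h1 : (⊥ : Submodule ℂ H)ᗮᗮ.starProjection ξ ∈ (⊥ : Submodule ℂ H)ᗮᗮ :=
        Submodule.starProjection_apply_mem _ _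
      have h2 : (⊥ : Submodule ℂ H)ᗮᗮ = ⊥ := by
        rw [Submodule.bot_orthogonal_eq_top, Submodule.top_orthogonal_eq_bot]
      have h3 : (⊥ : Submodule ℂ H)ᗮᗮ.starProjection ξ = 0 := by
        have h4 : ∀ w : H, w ∈ (⊥ : Submodule ℂ H)ᗮᗮ → w = 0 := by
          intro w hw
          rw [h2, Submodule.mem_bot] at hw
          exact hw
        exact h4 _ h1
      rw [h3, norm_zero]
      exact Real.sqrt_nonneg _
  obtain ⟨K, -, hK⟩ := zorn_le_nonempty₀ S (by
    intro c hcS hchain y hy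
    refine ⟨sSup c, ⟨inv_sSup c (fun K hK => (hcS hK).1), sSup_le fun K hK => (hcS hK).2.1, ?_⟩,
      fun z hz => le_sSup hz⟩
    apply le_of_forall_pos_le_add
    intro η hη
    obtain ⟨K, hK, hK'⟩ := chain_cont c hchain ⟨y, hy⟩ ξ η hη
    have h1 := hK' K hK le_rfl
    have h2 := (hcS hK).2.2
    have h3 : (sSup c)ᗮᗮ.starProjection ξ
        = Kᗮᗮ.starProjection ξ + (Kᗮ.starProjection - (sSup c)ᗮ.starProjection) ξ := by
      rw [hoo, hoo]
      change _ = _ + (Kᗮ.starProjection ξ - (sSup c)ᗮ.starProjection ξ)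
      abel
    rw [h3]
    exact (norm_add_le _ _).trans (add_le_add h2 h1)) ⊥ hbot
  have hKS : K ∈ S := hK.prop
  set f := Kᗮᗮ.starProjection with hf
  have hfA : f ∈ A := proj_mem hc _ (inv_orth (inv_orth hKS.1))
  have hfs : IsStarProjection f := isStarProjection_starProjection
  have hef : e * f = f := by
    ext v
    have h1 : f v ∈ Kᗮᗮ := Submodule.starProjection_apply_mem _ _
    have h2 : Kᗮᗮ ≤ (e.range)ᗮᗮ := Submodule.orthogonal_le (Submodule.orthogonal_le hKS.2.1)
    rw [range_orth_orth hes] at h2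
    exact (mem_range_iff hes _).1 (h2 h1)
  have hfe : f * e = f := by rw [ha f hfA e heA, hef]
  have hle : ‖f ξ‖ ^ 2 ≤ t := by
    have := hKS.2.2
    calc ‖f ξ‖ ^ 2 ≤ Real.sqrt t ^ 2 := by gcongr
      _ = t := Real.sq_sqrt ht0
  refine ⟨f, hfA, hfs, hef, le_antisymm hle ?_⟩
  by_contra hlt
  push Not at hlt
  set η := t - ‖f ξ‖ ^ 2 with hη
  have hη0 : 0 < η := by linarith
  set g := e - f with hg
  have hgA : g ∈ A := sub_mem heA hfA
  have hgs : IsStarProjection g := hfs.sub_of_mul_eq_left hes hfe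
  have hfg : f * g = 0 := by rw [hg, mul_sub, hfe, hfs.isIdempotentElem.eq, sub_self]
  have heg : e * g = g := by rw [hg, mul_sub, hes.isIdempotentElem.eq, hef]
  have hgpos : 0 < ‖g ξ‖ ^ 2 := by
    have h1 := norm_add_proj hfs hfg ξ
    have h2 : f + g = e := by rw [hg]; abel
    rw [h2] at h1
    linarith
  obtain ⟨ι, hι, p, hp, hpm⟩ := exists_fine hc hd {ξ} η hη0
  obtain ⟨i, hi⟩ : ∃ i, 0 < ‖p i (g ξ)‖ ^ 2 := by
    by_contra hcon
    push Not at hcon
    have h1 := pythag hp (g ξ)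
    have h2 : ∑ i, ‖p i (g ξ)‖ ^ 2 ≤ 0 := Finset.sum_nonpos fun i _ => hcon i
    linarith
  set h := g * p i with hh
  have hcom : g * p i = p i * g := ha _ hgA _ (hp.1 i).1
  have hhA : h ∈ A := mul_mem hgA (hp.1 i).1
  have hhs : IsStarProjection h := hgs.mul (hp.1 i).2 hcom
  have hfh : f * h = 0 := by rw [hh, ← mul_assoc, hfg, zero_mul]
  have heh : e * h = h := by rw [hh, ← mul_assoc, heg]
  have hhm : ‖h ξ‖ ^ 2 ≤ η := by
    have h1 := hpm i
    unfold mass at h1
    rw [Finset.sum_singleton] at h1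
    have h2 : ‖h ξ‖ ≤ ‖p i ξ‖ := by
      change ‖g (p i ξ)‖ ≤ ‖p i ξ‖
      have := norm_proj_le hgs
      exact (g.le_opNorm _).trans (by nlinarith [norm_nonneg (p i ξ)])
    calc ‖h ξ‖ ^ 2 ≤ ‖p i ξ‖ ^ 2 := by gcongr
      _ ≤ η := h1
  have hhpos : 0 < ‖h ξ‖ ^ 2 := by
    have : h ξ = p i (g ξ) := by
      have := congrArg (fun S : H →L[ℂ] H => S ξ) hcom
      exact this
    rw [this]
    exact hi
  have hfhs : IsStarProjection (f + h) := hfs.add hhs hfh
  have hfhA : f + h ∈ A := add_mem hfA hhA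
  have hmem : (f + h).range ∈ S := by
    refine ⟨inv_range ha hfhA, ?_, ?_⟩
    · rintro _ ⟨v, rfl⟩
      rw [mem_range_iff hes]
      have h1 : e * (f + h) = f + h := by rw [mul_add, hef, heh]
      exact congrArg (fun S : H →L[ℂ] H => S v) h1
    · rw [proj_range hfhs]
      apply Real.le_sqrt_of_sq_le
      rw [norm_add_proj hfs hfh]
      linarith
  have hKle : K ≤ (f + h).range := by
    intro v hv
    rw [mem_range_iff hfhs]
    have h1 : f v = v := by
      rw [hf]
      exact (Submodule.starProjection_eq_self_iff).2 (Submodule.le_orthogonal_orthogonal K hv)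
    have h2 : h v = 0 := by
      have hhf : h * f = 0 := by rw [ha h hhA f hfA, hfh]
      have := congrArg (fun S : H →L[ℂ] H => S v) hhf
      change h (f v) = 0 at this
      rwa [h1] at this
    change f v + h v = v
    rw [h1, h2, add_zero]
  have hge := hK.le_of_ge hmem hKle
  have h3 : h ξ ∈ (f + h).range := by
    rw [mem_range_iff hfhs]
    have : (f + h) * h = h := by rw [add_mul, hfh, zero_add, hhs.isIdempotentElem.eq]
    exact congrArg (fun S : H →L[ℂ] H => S ξ) this
  have h4 : h ξ ∈ K := hge h3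
  have h5 : f (h ξ) = h ξ := by
    rw [hf]
    exact (Submodule.starProjection_eq_self_iff).2 (Submodule.le_orthogonal_orthogonal K h4)
  have h6 : f (h ξ) = 0 := congrArg (fun S : H →L[ℂ] H => S ξ) hfh
  rw [← h5, h6, norm_zero] at hhpos
  norm_num at hhpos

/-- Equal partitions. -/
theorem exists_equal {A : VonNeumannAlgebra H} (hc : A.commutant = A) (hd : IsDiffuse A) (ξ : H)
    (n : ℕ) : ∀ (e : H →L[ℂ] H), e ∈ A → IsStarProjection e →
      ∃ p : Fin (n + 1) → H →L[ℂ] H, PartOf A e p ∧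
        ∀ i, ‖p i ξ‖ ^ 2 = ‖e ξ‖ ^ 2 / ((n : ℝ) + 1) := by
  have ha := masa_comm hc
  induction n with
  | zero =>
    intro e heA hes
    refine ⟨fun _ => e, ⟨fun _ => ⟨heA, hes⟩, fun i j hij => absurd (Fin.ext (by omega)) hij,
      by simp⟩, fun _ => by simp⟩
  | succ n ih =>
    intro e heA hes
    have hn : (0 : ℝ) < (n : ℝ) + 1 := by positivity
    have hn2 : (0 : ℝ) < ((n + 1 : ℕ) : ℝ) + 1 := by positivity
    obtain ⟨f, hfA, hfs, hef, hfm⟩ := exact_mass hc hd ξ e heA hes
      (‖e ξ‖ ^ 2 / (((n + 1 : ℕ) : ℝ) + 1)) (by positivity) (by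
        apply div_le_self (by positivity)
        have : (0 : ℝ) ≤ ((n + 1 : ℕ) : ℝ) := by positivity
        linarith)
    have hfe : f * e = f := by rw [ha f hfA e heA, hef]
    have hgA : e - f ∈ A := sub_mem heA hfA
    have hgs : IsStarProjection (e - f) := hfs.sub_of_mul_eq_left hes hfe
    have hfg : f * (e - f) = 0 := by rw [mul_sub, hfe, hfs.isIdempotentElem.eq, sub_self]
    have hgf : (e - f) * f = 0 := by rw [sub_mul, hef, hfs.isIdempotentElem.eq, sub_self]
    obtain ⟨p, hp, hpm⟩ := ih (e - f) hgA hgs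
    have hgm : ‖(e - f) ξ‖ ^ 2 = ‖e ξ‖ ^ 2 - ‖e ξ‖ ^ 2 / (((n + 1 : ℕ) : ℝ) + 1) := by
      have h1 := norm_add_proj hfs hfg ξ
      have h2 : f + (e - f) = e := by abel
      rw [h2, hfm] at h1
      linarith
    refine ⟨Fin.cons f p, ⟨?_, ?_, ?_⟩, ?_⟩
    · intro i
      refine Fin.cases ?_ (fun j => ?_) i
      · exact ⟨hfA, hfs⟩
      · simpa using hp.1 j
    · intro i j
      refine Fin.cases ?_ (fun i => ?_) i
      · refine Fin.cases ?_ (fun j => ?_) j
        · intro h; exact absurd rfl h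
        · intro _
          simp only [Fin.cons_zero, Fin.cons_succ]
          rw [← (hp.le j).1, ← mul_assoc, hfg, zero_mul]
      · refine Fin.cases ?_ (fun j => ?_) j
        · intro _
          simp only [Fin.cons_zero, Fin.cons_succ]
          rw [← (hp.le i).2, mul_assoc, hgf, mul_zero]
        · intro hij
          simp only [Fin.cons_succ]
          exact hp.2.1 i j (fun h => hij (by rw [h]))
    · rw [Fin.sum_univ_succ]
      simp only [Fin.cons_zero, Fin.cons_succ]
      rw [hp.2.2]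
      abel
    · intro i
      refine Fin.cases ?_ (fun j => ?_) i
      · simpa using hfm
      · simp only [Fin.cons_succ]
        rw [hpm j, hgm]
        push_cast
        field_simp
        ring

end Vale.Agent.P078
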