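import Vale.Agent.Lib.P078.Upper

/-!
# P078: the paving theorem for diffuse masas of `B(H)`
-/

namespace Vale.Agent.P078

open Finset Filter Topology

variable {H : Type*} [NormedAddCommGroup H] [InnerProductSpace ℂ H] [CompleteSpace H]

theorem mem_full (T : H →L[ℂ] H) : T ∈ full H := trivial

/-- Approximation of `S_P(x)` by `(1/r) x + (1 - 1/r) T` on finitely many vectors. -/
theorem exists_approx {A : VonNeumannAlgebra H} (hc : A.commutant = A) (hd : IsDiffuse A)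
    (x : H →L[ℂ] H) (hx : IsSelfAdjoint x) {r : ℕ} (hr : 0 < r) :
    ∃ T ∈ A, IsSelfAdjoint T ∧ ‖T‖ ≤ ‖x‖ ∧ ∀ (m : ℕ) (b : Fin m → H) (_ : ∀ i, ‖b i‖ = 1)
      (τ : ℝ) (_ : 0 < τ), ∃ p : Fin r → H →L[ℂ] H, IsPartition A p ∧
        ∑ i, ∑ j, ‖inner ℂ ((pinching p x - ((1 / (r : ℝ) : ℝ) : ℂ) • x
          - ((1 - 1 / (r : ℝ) : ℝ) : ℂ) • T) (b j)) (b i)‖ ^ 2 ≤ τ ^ 2 := by
  classical
  obtain ⟨T, hTA, hTs, hTn, hT⟩ := exists_expectation hc hd x hx
  refine ⟨T, hTA, hTs, hTn, fun m b hb τ hτ => ?_⟩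
  set M : ℝ := 2 * (m : ℝ) ^ 2 + 8 * (m : ℝ) ^ 2 * ‖x‖ ^ 2 + 1 with hM
  have hMpos : 0 < M := by positivity
  set η : ℝ := min 1 (τ ^ 2 / M) with hη
  have hη0 : 0 < η := by positivity
  have hη1 : η ≤ 1 := min_le_left _ _
  have hη2 : η * M ≤ τ ^ 2 := by
    have := min_le_right (1 : ℝ) (τ ^ 2 / M)
    rw [← hη, le_div_iff₀ hMpos] at this
    exact this
  obtain ⟨ι, hι, p, hp, hpm, hpT⟩ := hT (Finset.univ.image b) η hη0
  have hmem : ∀ i, b i ∈ Finset.univ.image b := fun i =>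
    Finset.mem_image_of_mem b (Finset.mem_univ i)
  have hpb : ∀ I i, ‖p I (b i)‖ ^ 2 ≤ η := by
    intro I i
    refine le_trans ?_ (hpm I)
    unfold mass
    exact Finset.single_le_sum (f := fun v => ‖p I v‖ ^ 2) (fun _ _ => by positivity) (hmem i)
  -- families
  let z : (Fin m × Fin m) × Bool → ι × ι → ℝ := fun k a =>
    if k.2 then (inner ℂ ((p a.1 * x * p a.2) (b k.1.2)) (b k.1.1)).re
    else (inner ℂ ((p a.1 * x * p a.2) (b k.1.2)) (b k.1.1)).im
  obtain ⟨c, hcol⟩ := exists_coloring hr z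
  refine ⟨colorClass p c, colorClass_partition hp c, ?_⟩
  set S := ∑ I, p I * x * p I with hS
  set X := ∑ a : ι × ι, ((ind c a : ℝ) : ℂ) • (p a.1 * x * p a.2) with hX
  have hdec : pinching (colorClass p c) x - ((1 / (r : ℝ) : ℝ) : ℂ) • x
      - ((1 - 1 / (r : ℝ) : ℝ) : ℂ) • T = ((1 - 1 / (r : ℝ) : ℝ) : ℂ) • (S - T) + X := by
    rw [pinching_color hp c x, smul_sub]
    abel
  have hr1 : (1 : ℝ) ≤ r := by exact_mod_cast hr
  have hco : |1 - 1 / (r : ℝ)| ≤ 1 := by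
    have h1 : 1 / (r : ℝ) ≤ 1 := by rw [div_le_one (by positivity)]; exact hr1
    have h2 : 0 ≤ 1 / (r : ℝ) := by positivity
    rw [abs_le]; constructor <;> linarith
  -- the entries of X
  have hXe : ∀ i j, ‖inner ℂ (X (b j)) (b i)‖ ^ 2
      = (∑ a, ind c a * z ((i, j), true) a) ^ 2 + (∑ a, ind c a * z ((i, j), false) a) ^ 2 := by
    intro i j
    have h1 : inner ℂ (X (b j)) (b i)
        = ∑ a, ((ind c a : ℝ) : ℂ) * inner ℂ ((p a.1 * x * p a.2) (b j)) (b i) := by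
      rw [hX, ContinuousLinearMap.sum_apply, sum_inner]
      refine Finset.sum_congr rfl fun a _ => ?_
      rw [ContinuousLinearMap.smul_apply, inner_smul_left, Complex.conj_ofReal]
    have hre : (inner ℂ (X (b j)) (b i)).re = ∑ a, ind c a * z ((i, j), true) a := by
      rw [h1, Complex.re_sum]
      refine Finset.sum_congr rfl fun a _ => ?_
      simp [z]
    have him : (inner ℂ (X (b j)) (b i)).im = ∑ a, ind c a * z ((i, j), false) a := by
      rw [h1, Complex.im_sum]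
      refine Finset.sum_congr rfl fun a _ => ?_
      simp [z]
    rw [← Complex.normSq_eq_norm_sq, Complex.normSq_apply, hre, him]
    ring
  have hXsum : ∑ i, ∑ j, ‖inner ℂ (X (b j)) (b i)‖ ^ 2
      ≤ 2 * ((m : ℝ) ^ 2 * (2 * (η * ‖x‖ ^ 2))) := by
    have h1 : ∑ i, ∑ j, ‖inner ℂ (X (b j)) (b i)‖ ^ 2 = ∑ k, (∑ a, ind c a * z k a) ^ 2 := by
      simp only [Fintype.sum_prod_type, Fintype.sum_bool, hXe]
    rw [h1]
    refine hcol.trans ?_
    refine mul_le_mul_of_nonneg_left ?_ (by norm_num)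
    have h2 : ∀ k : (Fin m × Fin m) × Bool, ∑ a, z k a ^ 2 ≤ η * ‖x‖ ^ 2 := by
      intro k
      have h3 := offdiag_le hp x (b k.1.1) (b k.1.2) η (fun I => hpb I _) hη0.le
      rw [hb, one_pow, mul_one] at h3
      refine le_trans (Finset.sum_le_sum fun a _ => ?_) h3
      rw [← Complex.normSq_eq_norm_sq, Complex.normSq_apply]
      simp only [z]
      split_ifs
      · nlinarith [mul_self_nonneg (inner ℂ ((p a.1 * x * p a.2) (b k.1.2)) (b k.1.1)).im]
      · nlinarith [mul_self_nonneg (inner ℂ ((p a.1 * x * p a.2) (b k.1.2)) (b k.1.1)).re]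
    refine (Finset.sum_le_sum fun k _ => h2 k).trans ?_
    rw [Finset.sum_const, nsmul_eq_mul]
    simp only [Finset.card_univ, Fintype.card_prod, Fintype.card_fin, Fintype.card_bool]
    push_cast
    apply le_of_eq
    ring
  rw [hdec]
  have hent : ∀ i j, ‖inner ℂ ((((1 - 1 / (r : ℝ) : ℝ) : ℂ) • (S - T) + X) (b j)) (b i)‖ ^ 2
      ≤ 2 * η ^ 2 + 2 * ‖inner ℂ (X (b j)) (b i)‖ ^ 2 := by
    intro i j
    have h1 : inner ℂ ((((1 - 1 / (r : ℝ) : ℝ) : ℂ) • (S - T) + X) (b j)) (b i)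
        = ((1 - 1 / (r : ℝ) : ℝ) : ℂ) * inner ℂ (S (b j) - T (b j)) (b i)
          + inner ℂ (X (b j)) (b i) := by
      change inner ℂ (((1 - 1 / (r : ℝ) : ℝ) : ℂ) • (S (b j) - T (b j)) + X (b j)) (b i) = _
      rw [inner_add_left, inner_smul_left, Complex.conj_ofReal]
    have h2 : ‖((1 - 1 / (r : ℝ) : ℝ) : ℂ) * inner ℂ (S (b j) - T (b j)) (b i)‖ ≤ η := by
      rw [norm_mul, Complex.norm_real, Real.norm_eq_abs]
      have h3 := hpT (b j) (hmem j) (b i) (hmem i)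
      have := norm_nonneg (inner ℂ (S (b j) - T (b j)) (b i))
      nlinarith [abs_nonneg (1 - 1 / (r : ℝ))]
    rw [h1]
    have h4 := norm_add_le (((1 - 1 / (r : ℝ) : ℝ) : ℂ) * inner ℂ (S (b j) - T (b j)) (b i))
      (inner ℂ (X (b j)) (b i))
    have h5 : ‖((1 - 1 / (r : ℝ) : ℝ) : ℂ) * inner ℂ (S (b j) - T (b j)) (b i)
        + inner ℂ (X (b j)) (b i)‖ ≤ η + ‖inner ℂ (X (b j)) (b i)‖ := by linarith
    calc _ ≤ (η + ‖inner ℂ (X (b j)) (b i)‖) ^ 2 := by gcongr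
      _ ≤ _ := by nlinarith [sq_nonneg (η - ‖inner ℂ (X (b j)) (b i)‖)]
  refine (Finset.sum_le_sum fun i _ => Finset.sum_le_sum fun j _ => hent i j).trans ?_
  simp only [Finset.sum_add_distrib, Finset.sum_const, Finset.card_univ, Fintype.card_fin,
    nsmul_eq_mul, ← Finset.mul_sum]
  have h6 : η ^ 2 ≤ η := by nlinarith
  have h7 : (m : ℝ) * ((m : ℝ) * (2 * η ^ 2)) ≤ 2 * (m : ℝ) ^ 2 * η := by
    have : (0 : ℝ) ≤ (m : ℝ) ^ 2 := by positivity
    nlinarith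
  refine le_trans (add_le_add h7 (mul_le_mul_of_nonneg_left hXsum (by norm_num))) ?_
  refine le_trans (le_of_eq ?_) (le_trans (?_ : η * (2 * (m : ℝ) ^ 2 + 8 * (m : ℝ) ^ 2 * ‖x‖ ^ 2)
    ≤ η * M) hη2)
  · ring
  · rw [hM]
    nlinarith

/-- Every self-adjoint operator is `(ε, r)` so-pavable over a diffuse masa as soon as
`1 / r < ε`. -/
theorem pavable_of_diffuse {A : VonNeumannAlgebra H} (hA : IsMASA A (full H)) (hd : IsDiffuse A)
    (x : H →L[ℂ] H) (hx : IsSelfAdjoint x) {ε : ℝ} {r : ℕ} (hr : 0 < r)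
    (hε : 1 / (r : ℝ) < ε) : SoPavable A (full H) x ε r := by
  classical
  have hc := hA.commutant_eq
  intro F δ hδ
  obtain ⟨T, hTA, hTs, hTn, hT⟩ := exists_approx hc hd x hx hr
  set V : Submodule ℂ H := Submodule.span ℂ (F : Set H) with hV
  have hfd : FiniteDimensional ℂ V := FiniteDimensional.span_of_finite ℂ F.finite_toSet
  let b := stdOrthonormalBasis ℂ V
  have hb1 : ∀ i, ‖((b i : V) : H)‖ = 1 := by
    intro i
    exact b.norm_eq_one i
  have hr1 : (1 : ℝ) ≤ r := by exact_mod_cast hr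
  have hco0 : 0 ≤ 1 - 1 / (r : ℝ) := by
    have h1 : 1 / (r : ℝ) ≤ 1 := by rw [div_le_one (by positivity)]; exact hr1
    linarith
  have hco1 : 1 - 1 / (r : ℝ) ≤ 1 := by
    have h2 : 0 ≤ 1 / (r : ℝ) := by positivity
    linarith
  -- common part
  have hqF : ∀ ξ ∈ F, ‖(1 - V.starProjection) ξ‖ < δ := by
    intro ξ hξ
    have : V.starProjection ξ = ξ :=
      (Submodule.starProjection_eq_self_iff).2 (Submodule.subset_span hξ)
    change ‖ξ - V.starProjection ξ‖ < δ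
    rw [this, sub_self, norm_zero]
    exact hδ
  have haT : (((1 - 1 / (r : ℝ) : ℝ) : ℂ) • T) ∈ A := A.toStarSubalgebra.smul_mem hTA _
  have haS : IsSelfAdjoint (((1 - 1 / (r : ℝ) : ℝ) : ℂ) • T) := by
    rw [IsSelfAdjoint, star_smul, hTs.star_eq]
    simp
  have haN : ‖((1 - 1 / (r : ℝ) : ℝ) : ℂ) • T‖ ≤ ‖x‖ := by
    rw [norm_smul, Complex.norm_real, Real.norm_of_nonneg hco0]
    have := norm_nonneg T
    nlinarith
  have hqs : IsStarProjection V.starProjection := isStarProjection_starProjection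
  rcases eq_or_ne x 0 with hx0 | hx0
  · subst hx0
    obtain ⟨p, hp, -⟩ := hT 0 (fun i => i.elim0) (fun i => i.elim0) 1 one_pos
    have hT0 : T = 0 := by
      rw [norm_zero] at hTn
      exact norm_le_zero_iff.1 hTn
    refine ⟨p, ((1 - 1 / (r : ℝ) : ℝ) : ℂ) • T, V.starProjection, hp, ⟨haT, haS, haN⟩,
      ⟨mem_full _, hqs⟩, hqF, ?_⟩
    rw [hT0]
    simp [pinching]
  · have hxpos : 0 < ‖x‖ := norm_pos_iff.2 hx0
    set τ : ℝ := (ε - 1 / (r : ℝ)) * ‖x‖ with hτ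
    have hτ0 : 0 < τ := mul_pos (by linarith) hxpos
    obtain ⟨p, hp, hsum⟩ := hT _ (fun i => ((b i : V) : H)) hb1 τ hτ0
    refine ⟨p, ((1 - 1 / (r : ℝ) : ℝ) : ℂ) • T, V.starProjection, hp, ⟨haT, haS, haN⟩,
      ⟨mem_full _, hqs⟩, hqF, ?_⟩
    have h1 := compress_le V b _ τ hτ0.le hsum
    have h2 : V.starProjection * (pinching p x - ((1 - 1 / (r : ℝ) : ℝ) : ℂ) • T)
        * V.starProjection
        = V.starProjection * (pinching p x - ((1 / (r : ℝ) : ℝ) : ℂ) • x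
          - ((1 - 1 / (r : ℝ) : ℝ) : ℂ) • T) * V.starProjection
          + ((1 / (r : ℝ) : ℝ) : ℂ) • (V.starProjection * x * V.starProjection) := by
      rw [sub_right_comm, mul_sub _ _ (((1 / (r : ℝ) : ℝ) : ℂ) • x), sub_mul, mul_smul_comm,
        smul_mul_assoc, sub_add_cancel]
    rw [h2]
    refine (norm_add_le _ _).trans ?_
    have h3 : ‖((1 / (r : ℝ) : ℝ) : ℂ) • (V.starProjection * x * V.starProjection)‖
        ≤ 1 / (r : ℝ) * ‖x‖ := by
      rw [norm_smul, Complex.norm_real, Real.norm_of_nonneg (by positivity)]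
      refine mul_le_mul_of_nonneg_left ?_ (by positivity)
      have hq := norm_proj_le hqs
      calc ‖V.starProjection * x * V.starProjection‖
          ≤ ‖V.starProjection‖ * ‖x‖ * ‖V.starProjection‖ := norm_mul₃_le
        _ ≤ 1 * ‖x‖ * 1 := by gcongr
        _ = ‖x‖ := by ring
    calc _ ≤ τ + 1 / (r : ℝ) * ‖x‖ := add_le_add h1 h3
      _ = ε * ‖x‖ := by rw [hτ]; ring

end Vale.Agent.P078
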