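import Vale.Agent.Lib.P078.Lower
import Vale.Agent.Lib.P078.Pave

/-!
# P078: the lower bound for diffuse masas of `B(H)`, conclusion
-/

namespace Vale.Agent.P078

open Finset

variable {H : Type*} [NormedAddCommGroup H] [InnerProductSpace ℂ H] [CompleteSpace H]

/-- a finite rank self-adjoint contraction -/
noncomputable def xop {K : ℕ} (s : Fin K → ℝ) (v : Fin K → H) : H →L[ℂ] H :=
  ∑ k : Fin K, (s k : ℂ) • ((innerSL ℂ (v k)).smulRight (v k))

theorem xop_apply {K : ℕ} (s : Fin K → ℝ) (v : Fin K → H) (w : H) :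
    xop s v w = ∑ k, ((s k : ℂ) * inner ℂ (v k) w) • v k := by
  unfold xop
  rw [ContinuousLinearMap.sum_apply]
  refine Finset.sum_congr rfl fun k _ => ?_
  rw [ContinuousLinearMap.smul_apply, ContinuousLinearMap.smulRight_apply, innerSL_apply_apply,
    smul_smul]

theorem xop_inner {K : ℕ} (s : Fin K → ℝ) (v : Fin K → H) (z w : H) :
    inner ℂ z (xop s v w) = ∑ k, (s k : ℂ) * (inner ℂ (v k) w * inner ℂ z (v k)) := by
  rw [xop_apply, inner_sum]
  refine Finset.sum_congr rfl fun k _ => ?_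
  rw [inner_smul_right]
  ring

theorem xop_sa {K : ℕ} (s : Fin K → ℝ) (v : Fin K → H) : IsSelfAdjoint (xop s v) := by
  rw [ContinuousLinearMap.isSelfAdjoint_iff_isSymmetric]
  intro z w
  change inner ℂ (xop s v z) w = inner ℂ z (xop s v w)
  rw [← inner_conj_symm, xop_inner, xop_inner, map_sum]
  refine Finset.sum_congr rfl fun k _ => ?_
  rw [map_mul, map_mul, inner_conj_symm, inner_conj_symm, Complex.conj_ofReal]
  ring

theorem xop_norm {K : ℕ} (s : Fin K → ℝ) (v : Fin K → H) (hv : Orthonormal ℂ v)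
    (hs : ∀ k, |s k| ≤ 1) : ‖xop s v‖ ≤ 1 := by
  classical
  refine ContinuousLinearMap.opNorm_le_bound _ zero_le_one fun w => ?_
  rw [one_mul]
  refine le_of_sq_le_sq ?_ (norm_nonneg _)
  have h1 : ∀ k, inner ℂ (v k) (xop s v w) = (s k : ℂ) * inner ℂ (v k) w := by
    intro k
    rw [xop_apply, hv.inner_right_fintype]
  have h2 : inner ℂ (xop s v w) (xop s v w)
      = ∑ k, (starRingEnd ℂ ((s k : ℂ) * inner ℂ (v k) w)) * ((s k : ℂ) * inner ℂ (v k) w) := by
    have h2' : ∀ z : H, inner ℂ (xop s v w) z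
        = ∑ k, (starRingEnd ℂ ((s k : ℂ) * inner ℂ (v k) w)) * inner ℂ (v k) z := by
      intro z
      rw [xop_apply, sum_inner]
      refine Finset.sum_congr rfl fun k _ => ?_
      rw [inner_smul_left]
    rw [h2']
    refine Finset.sum_congr rfl fun k _ => ?_
    rw [h1]
  have h3 : ‖xop s v w‖ ^ 2 = ∑ k, ‖(s k : ℂ) * inner ℂ (v k) w‖ ^ 2 := by
    have h4 : ((‖xop s v w‖ ^ 2 : ℝ) : ℂ) = ((∑ k, ‖(s k : ℂ) * inner ℂ (v k) w‖ ^ 2 : ℝ) : ℂ) := by
      rw [inner_self_eq_norm_sq_to_K] at h2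
      push_cast
      refine (Eq.trans ?_ h2).trans ?_
      · norm_cast
      · refine Finset.sum_congr rfl fun k _ => ?_
        rw [mul_comm, Complex.mul_conj, Complex.normSq_eq_norm_sq]
        push_cast
        simp
    exact_mod_cast h4
  rw [h3]
  refine le_trans (Finset.sum_le_sum fun k _ => ?_) (hv.sum_inner_products_le w (s := Finset.univ))
  rw [norm_mul, mul_pow, Complex.norm_real, Real.norm_eq_abs]
  have h5 : |s k| ^ 2 ≤ 1 := by
    have := hs k
    have := abs_nonneg (s k)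
    nlinarith
  have h6 : 0 ≤ ‖inner ℂ (v k) w‖ ^ 2 := by positivity
  nlinarith

/-- energy of a colour class -/
theorem energy {K : ℕ} (s : Fin K → ℝ) (hs : ∀ k, s k * s k = 1) (hs1 : ∀ k, |s k| ≤ 1)
    (N : Fin K → Fin K → ℝ) (hN : ∀ k l, 0 ≤ N k l) (μ : ℝ) (hd : ∀ k, N k k = μ ^ 2)
    (ho : ∑ q : {q : Fin K × Fin K // q.1 ≠ q.2}, N q.1.1 q.1.2 ≤ μ) :
    K * μ ^ 2 - μ ≤ ∑ k, ∑ l, s k * s l * N k l := by
  classical
  have h1 : ∀ k l, (if k = l then μ ^ 2 else 0) - (if k ≠ l then N k l else 0)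
      ≤ s k * s l * N k l := by
    intro k l
    by_cases h : k = l
    · subst h
      simp [hs, hd]
    · rw [if_neg h, if_pos h, zero_sub]
      have h2 : -1 ≤ s k * s l := by
        have h3 : |s k * s l| ≤ 1 := by
          rw [abs_mul]
          have := hs1 k
          have := hs1 l
          have := abs_nonneg (s k)
          have := abs_nonneg (s l)
          nlinarith
        exact (abs_le.1 h3).1
      nlinarith [hN k l]
  refine le_trans ?_ (Finset.sum_le_sum fun k _ => Finset.sum_le_sum fun l _ => h1 k l)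
  have h2 : ∑ k : Fin K, ∑ l : Fin K, (if k = l then μ ^ 2 else 0) = K * μ ^ 2 := by
    simp
  have h3 : ∑ k : Fin K, ∑ l : Fin K, (if k ≠ l then N k l else 0)
      = ∑ q : {q : Fin K × Fin K // q.1 ≠ q.2}, N q.1.1 q.1.2 := by
    rw [← Fintype.sum_prod_type' (f := fun k l => if k ≠ l then N k l else 0)]
    rw [← Finset.sum_filter]
    exact Finset.sum_subtype (univ.filter fun q : Fin K × Fin K => q.1 ≠ q.2) (by simp)
      (fun q => N q.1 q.2)
  simp only [Finset.sum_sub_distrib]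
  rw [h2, h3]
  linarith

theorem IsPartition.partOf {A : VonNeumannAlgebra H} {r : ℕ} {P : Fin r → H →L[ℂ] H}
    (h : IsPartition A P) : PartOf A 1 P := h

theorem sum_signs (L : ℕ) : ∑ k : Fin (2 * L), (-1 : ℝ) ^ (k : ℕ) = 0 := by
  rw [Fin.sum_univ_eq_sum_range (fun k => (-1 : ℝ) ^ k) (2 * L)]
  induction L with
  | zero => simp
  | succ n ih =>
    rw [show 2 * (n + 1) = 2 * n + 1 + 1 by ring, Finset.sum_range_succ, Finset.sum_range_succ, ih,
      pow_succ]
    ring

/-- the system of vectors -/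
theorem exists_system {A : VonNeumannAlgebra H} (hc : A.commutant = A) (hd : IsDiffuse A)
    (ξ : H) (hξ : ‖ξ‖ = 1) (K : ℕ) :
    ∃ v : Fin K → H, Orthonormal ℂ v ∧
      (∀ a ∈ A, ∀ k, inner ℂ (v k) (a (v k)) = inner ℂ ξ (a ξ)) ∧
      ∀ P ∈ A, IsStarProjection P →
        ∑ q : {q : Fin K × Fin K // q.1 ≠ q.2}, ‖inner ℂ (v q.1.2) (P (v q.1.1))‖ ^ 2
          ≤ ‖P ξ‖ ^ 2 := by
  classical
  have hcomm := masa_comm hc
  set M : ℕ := 3 ^ (K + 1) with hM
  have hM0 : 0 < M := by positivity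
  obtain ⟨M', hM'⟩ : ∃ M', M = M' + 1 := ⟨M - 1, by omega⟩
  -- equal partition
  have hex : ∃ p : Fin M → H →L[ℂ] H, PartOf A 1 p ∧ ∀ i, ‖p i ξ‖ ^ 2 = 1 / (M : ℝ) := by
    rw [hM']
    obtain ⟨p, hp, hpm⟩ := exists_equal hc hd ξ M' 1 (one_mem _) (IsStarProjection.one _)
    refine ⟨p, hp, fun i => ?_⟩
    rw [hpm i]
    push_cast
    simp [hξ]
  obtain ⟨p, hp, hpm⟩ := hex
  have hζ := Complex.isPrimitiveRoot_exp M hM0.ne'
  set ζ := Complex.exp (2 * Real.pi * Complex.I / M) with hζd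
  have hζn : ‖ζ‖ = 1 := hζ.norm'_eq_one hM0.ne'
  set y : ℤ → H := fun m => uu ζ p m ξ with hy
  have hyy : ∀ (a : H →L[ℂ] H), a ∈ A → ∀ l m : ℤ,
      inner ℂ (y l) (a (y m)) = inner ℂ ξ (a (y (m - l))) := fun a ha l m =>
    uu_inner hcomm hζn hp ξ a ha l m
  have hy0 : y 0 = ξ := by
    simp only [hy]
    rw [uu_zero ζ hp]
    rfl
  have hyo : ∀ l m : ℤ, inner ℂ (y l) (y m) = if (M : ℤ) ∣ m - l then 1 else 0 := by
    intro l m
    have h1 := hyy 1 (one_mem _) l m
    change inner ℂ (y l) (y m) = inner ℂ ξ (y (m - l)) at h1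
    rw [h1]
    exact uu_orth hM0 hζ hp ξ hpm (m - l)
  have hvo : Orthonormal ℂ (fun k : Fin K => y (3 ^ (k : ℕ))) := by
    rw [orthonormal_iff_ite]
    intro i j
    rw [hyo]
    by_cases hij : i = j
    · subst hij
      simp
    · rw [if_neg hij, if_neg]
      intro hdvd
      have hb : ∀ s : Fin K, (0 : ℤ) < 3 ^ (s : ℕ) ∧ (3 : ℤ) ^ (s : ℕ) * 3 ≤ 3 ^ K := by
        intro s
        refine ⟨by positivity, ?_⟩
        rw [← pow_succ]
        exact pow_le_pow_right₀ (by norm_num) s.2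
      have h0 : (3 : ℤ) ^ (j : ℕ) - 3 ^ (i : ℕ) = 0 := by
        apply Int.eq_zero_of_abs_lt_dvd hdvd
        rw [hM]
        push_cast
        rw [pow_succ, abs_lt]
        constructor <;> linarith [(hb i).1, (hb i).2, (hb j).1, (hb j).2]
      have h1 : (3 : ℕ) ^ (j : ℕ) = 3 ^ (i : ℕ) := by
        zify
        linarith
      exact hij (Fin.ext (Nat.pow_right_injective (by norm_num) h1).symm)
  have hyoff : Orthonormal ℂ (fun q : {q : Fin K × Fin K // q.1 ≠ q.2} =>
      y ((3 : ℤ) ^ (q.1.1 : ℕ) - 3 ^ (q.1.2 : ℕ))) := by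
    rw [orthonormal_iff_ite]
    intro q q'
    rw [hyo]
    by_cases hqq : q = q'
    · subst hqq
      simp
    · rw [if_neg hqq, if_neg]
      intro hdvd
      rw [hM] at hdvd
      obtain ⟨h1, h2⟩ := sidon_mod K q.1.1 q.1.2 q'.1.1 q'.1.2 q.2 q'.2 hdvd
      exact hqq (Subtype.ext (Prod.ext h1 h2))
  refine ⟨fun k => y (3 ^ (k : ℕ)), hvo, fun a ha k => ?_, fun P hPA hP => ?_⟩
  · change inner ℂ (y (3 ^ (k : ℕ))) (a (y (3 ^ (k : ℕ)))) = _
    rw [hyy a ha, sub_self, hy0]
  · refine le_trans (le_of_eq ?_) (hyoff.sum_inner_products_le (P ξ) (s := Finset.univ))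
    refine Finset.sum_congr rfl fun q _ => ?_
    change ‖inner ℂ (y (3 ^ (q.1.2 : ℕ))) (P (y (3 ^ (q.1.1 : ℕ))))‖ ^ 2 = _
    rw [hyy P hPA, ← star_apply hP, norm_inner_symm]

/-- The lower bound. -/
theorem not_pavable [Nontrivial H] {A : VonNeumannAlgebra H} (hA : IsMASA A (full H))
    (hd : IsDiffuse A) {ε : ℝ} (hε : 0 ≤ ε) {r : ℕ} (hr : 0 < r) (hlt : ε < 1 / (r : ℝ)) :
    ∃ x : H →L[ℂ] H, IsSelfAdjoint x ∧ ¬ SoPavable A (full H) x ε r := by
  classical
  have hc := hA.commutant_eq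
  obtain ⟨ξ, hξ⟩ : ∃ ξ : H, ‖ξ‖ = 1 := exists_norm_eq H zero_le_one
  set γ : ℝ := 1 / (r : ℝ) - ε with hγ
  have hγ0 : 0 < γ := by linarith
  obtain ⟨L, hL⟩ := exists_nat_gt (1 / γ)
  obtain ⟨v, hv, hva, hvP⟩ := exists_system hc hd ξ hξ (2 * L)
  set s : Fin (2 * L) → ℝ := fun k => (-1) ^ (k : ℕ) with hs
  have hss : ∀ k, s k * s k = 1 := by
    intro k
    simp only [hs]
    rw [← mul_pow]
    simp
  have hs1 : ∀ k, |s k| ≤ 1 := by
    intro k
    simp only [hs]
    rw [abs_pow]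
    simp
  have hssum : ∑ k, s k = 0 := sum_signs L
  refine ⟨xop s v, xop_sa s v, fun hpav => ?_⟩
  obtain ⟨P, a, q, hP, ⟨haA, hasa, han⟩, ⟨-, hq⟩, hqF, hqn⟩ :=
    hpav (Finset.univ.image v) (γ / 16) (by positivity)
  set x := xop s v with hx
  have hxn : ‖x‖ ≤ 1 := xop_norm s v hv hs1
  have hPp : PartOf A 1 P := hP
  have hSn : ‖pinching P x‖ ≤ ‖x‖ := norm_pinch_le hPp x
  set T := pinching P x - a with hT
  have hTn : ‖T‖ ≤ 2 := by
    have := norm_sub_le (pinching P x) a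
    rw [hT]
    linarith
  -- upper estimate of each term
  have hup : ∀ k, |(inner ℂ (v k) (T (v k))).re| ≤ ε + γ / 4 := by
    intro k
    have hw := hqF (v k) (Finset.mem_image_of_mem v (Finset.mem_univ k))
    change ‖v k - q (v k)‖ < γ / 16 at hw
    have hvk : ‖v k‖ = 1 := hv.1 k
    have h1 : inner ℂ (v k) (T (v k)) = inner ℂ (v k) ((q * T * q) (v k))
        + inner ℂ (q (v k)) (T (v k - q (v k))) + inner ℂ (v k - q (v k)) (T (v k)) := by
      change _ = inner ℂ (v k) (q (T (q (v k)))) + _ + _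
      rw [← star_apply hq, map_sub, inner_sub_right, inner_sub_left]
      ring
    have h2 : ‖inner ℂ (v k) ((q * T * q) (v k))‖ ≤ ε := by
      refine (norm_inner_le_norm _ _).trans ?_
      rw [hvk, one_mul]
      refine ((q * T * q).le_opNorm _).trans ?_
      rw [hvk, mul_one]
      refine hqn.trans ?_
      nlinarith [norm_nonneg x]
    have hqv : ‖q (v k)‖ ≤ 1 := by
      refine (q.le_opNorm _).trans ?_
      rw [hvk, mul_one]
      exact norm_proj_le hq
    have h3 : ‖inner ℂ (q (v k)) (T (v k - q (v k)))‖ ≤ γ / 8 := by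
      refine (norm_inner_le_norm _ _).trans ?_
      have h4 : ‖T (v k - q (v k))‖ ≤ 2 * (γ / 16) :=
        (T.le_opNorm _).trans (by
          have := norm_nonneg (v k - q (v k))
          have := norm_nonneg T
          nlinarith)
      have := norm_nonneg (T (v k - q (v k)))
      nlinarith [norm_nonneg (q (v k))]
    have h5 : ‖inner ℂ (v k - q (v k)) (T (v k))‖ ≤ γ / 8 := by
      refine (norm_inner_le_norm _ _).trans ?_
      have h6 : ‖T (v k)‖ ≤ 2 := by
        refine (T.le_opNorm _).trans ?_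
        rw [hvk, mul_one]
        exact hTn
      have := norm_nonneg (T (v k))
      nlinarith [norm_nonneg (v k - q (v k))]
    refine (Complex.abs_re_le_norm _).trans ?_
    rw [h1]
    refine (norm_add_le _ _).trans ?_
    have := norm_add_le (inner ℂ (v k) ((q * T * q) (v k)))
      (inner ℂ (q (v k)) (T (v k - q (v k))))
    linarith
  -- lower estimate of the sum
  set μ : Fin r → ℝ := fun j => ‖P j ξ‖ ^ 2 with hμ
  have hμsum : ∑ j, μ j = 1 := by
    have := pythag hPp ξ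
    rw [hξ] at this
    simpa [hμ] using this
  have hμsq : 1 / (r : ℝ) ≤ ∑ j, μ j ^ 2 := by
    have h1 := Finset.sum_mul_sq_le_sq_mul_sq (Finset.univ : Finset (Fin r)) (fun _ => (1 : ℝ)) μ
    simp only [one_mul, hμsum, one_pow, Finset.sum_const, Finset.card_univ, Fintype.card_fin,
      nsmul_eq_mul, mul_one] at h1
    rw [div_le_iff₀ (by positivity)]
    linarith
  have hdiag : ∀ j k, inner ℂ (v k) (P j (v k)) = ((μ j : ℝ) : ℂ) := by
    intro j k
    rw [hva (P j) (hP.1 j).1 k, ← proj_idem (hP.1 j).2, ← star_apply (hP.1 j).2,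
      inner_self_eq_norm_sq_to_K]
    simp only [hμ]
    norm_cast
  have hterm : ∀ k, (inner ℂ (v k) (pinching P x (v k))).re
      = ∑ j, ∑ l, s l * ‖inner ℂ (v l) (P j (v k))‖ ^ 2 := by
    intro k
    unfold pinching
    rw [ContinuousLinearMap.sum_apply, inner_sum, Complex.re_sum]
    refine Finset.sum_congr rfl fun j _ => ?_
    change (inner ℂ (v k) (P j (x (P j (v k))))).re = _
    rw [← star_apply (hP.1 j).2, hx, xop_inner, Complex.re_sum]
    refine Finset.sum_congr rfl fun l _ => ?_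
    rw [Complex.re_ofReal_mul]
    congr 1
    have h1 : inner ℂ (P j (v k)) (v l) = starRingEnd ℂ (inner ℂ (v l) (P j (v k))) :=
      (inner_conj_symm _ _).symm
    rw [h1, Complex.mul_conj, Complex.normSq_eq_norm_sq, Complex.ofReal_re]
  have hlow : ((2 * L : ℕ) : ℝ) / r - 1 ≤ ∑ k, s k * (inner ℂ (v k) (T (v k))).re := by
    have h1 : ∀ k, (inner ℂ (v k) (T (v k))).re
        = (inner ℂ (v k) (pinching P x (v k))).re - (inner ℂ ξ (a ξ)).re := by
      intro k
      rw [← hva a haA k, hT]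
      change (inner ℂ (v k) (pinching P x (v k) - a (v k))).re = _
      rw [inner_sub_right, Complex.sub_re]
    simp only [h1, mul_sub, Finset.sum_sub_distrib]
    rw [← Finset.sum_mul, hssum, zero_mul, sub_zero]
    simp only [hterm, Finset.mul_sum]
    rw [Finset.sum_comm]
    have h2 : ∀ j, ((2 * L : ℕ) : ℝ) * μ j ^ 2 - μ j
        ≤ ∑ k, ∑ l, s k * (s l * ‖inner ℂ (v l) (P j (v k))‖ ^ 2) := by
      intro j
      have h3 := energy s hss hs1 (fun k l => ‖inner ℂ (v l) (P j (v k))‖ ^ 2)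
        (fun k l => by positivity) (μ j) (fun k => by
          rw [hdiag, Complex.norm_real, Real.norm_eq_abs, sq_abs])
        (hvP (P j) (hP.1 j).1 (hP.1 j).2)
      refine h3.trans (le_of_eq ?_)
      refine Finset.sum_congr rfl fun k _ => Finset.sum_congr rfl fun l _ => by ring
    refine le_trans ?_ (Finset.sum_le_sum fun j _ => h2 j)
    rw [Finset.sum_sub_distrib, ← Finset.mul_sum, hμsum]
    have h4 : ((2 * L : ℕ) : ℝ) / r = ((2 * L : ℕ) : ℝ) * (1 / r) := by ring
    rw [h4]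
    have h5 : (0 : ℝ) ≤ ((2 * L : ℕ) : ℝ) := by positivity
    have := mul_le_mul_of_nonneg_left hμsq h5
    linarith
  have hupp : ∑ k, s k * (inner ℂ (v k) (T (v k))).re ≤ ((2 * L : ℕ) : ℝ) * (ε + γ / 4) := by
    have h1 : ∀ k, s k * (inner ℂ (v k) (T (v k))).re ≤ ε + γ / 4 := by
      intro k
      refine (le_abs_self _).trans ?_
      rw [abs_mul]
      have := hs1 k
      have := hup k
      have := abs_nonneg (s k)
      have := abs_nonneg (inner ℂ (v k) (T (v k))).re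
      nlinarith
    refine (Finset.sum_le_sum fun k _ => h1 k).trans ?_
    rw [Finset.sum_const, Finset.card_univ, Fintype.card_fin, nsmul_eq_mul]
  have hfin := hlow.trans hupp
  have h7 : ((2 * L : ℕ) : ℝ) / r = ((2 * L : ℕ) : ℝ) * (γ + ε) := by
    rw [hγ]; ring
  rw [h7] at hfin
  have h8 : ((2 * L : ℕ) : ℝ) = 2 * (L : ℝ) := by push_cast; ring
  rw [h8] at hfin
  have h9 : 1 < L * γ := by
    rw [div_lt_iff₀ hγ0] at hL
    exact hL
  nlinarith

end Vale.Agent.P078
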