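import Vale.Agent.Lib.P078.Exact

/-!
# P078: the lower bound for diffuse masas of `B(H)`
-/

namespace Vale.Agent.P078

open Finset

/-! ### a Sidon set -/

theorem sidon_nat (a b c d : ℕ) (hab : a ≠ b) (hcd : c ≠ d) (h : 3 ^ a + 3 ^ d = 3 ^ c + 3 ^ b) :
    a = c ∧ b = d := by
  have hmono : ∀ {s t : ℕ}, s < t → 3 * 3 ^ s ≤ 3 ^ t := by
    intro s t hst
    calc 3 * 3 ^ s = 3 ^ (s + 1) := by rw [pow_succ]; ring
      _ ≤ 3 ^ t := Nat.pow_le_pow_right (by norm_num) hst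
  have hp : ∀ s : ℕ, 0 < 3 ^ s := fun s => by positivity
  have hinj : ∀ {s t : ℕ}, 3 ^ s = 3 ^ t → s = t := fun {s t} hst =>
    Nat.pow_right_injective (le_refl 2 |>.trans (by norm_num)) hst
  rcases lt_trichotomy a c with h1 | h1 | h1
  · -- a < c: then d must be large
    rcases lt_trichotomy d c with h2 | h2 | h2
    · have := hmono h1
      have := hmono h2
      have := hp b
      omega
    · exact absurd h2.symm hcd
    · rcases lt_trichotomy d b with h3 | h3 | h3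
      · have := hmono h3
        have h4 : 3 ^ a ≤ 3 ^ b := Nat.pow_le_pow_right (by norm_num) (by omega)
        have := hmono (show a < b by omega)
        have := hp c
        omega
      · subst h3
        exact ⟨hinj (by omega), rfl⟩
      · have := hmono h3
        have := hmono h2
        have := hp a
        omega
  · subst h1
    exact ⟨rfl, hinj (by omega)⟩
  · rcases lt_trichotomy a b with h2 | h2 | h2
    · rcases lt_trichotomy b d with h3 | h3 | h3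
      · have := hmono h3
        have := hmono (show c < d by omega)
        have := hp a
        omega
      · subst h3
        exact ⟨hinj (by omega), rfl⟩
      · have := hmono h3
        have := hmono h2
        have := hp c
        omega
    · exact absurd h2 hab
    · have := hmono h1
      have := hmono h2
      have := hp d
      omega

theorem sidon_mod (K : ℕ) (a b c d : Fin K) (hab : a ≠ b) (hcd : c ≠ d)
    (h : ((3 ^ (K + 1) : ℕ) : ℤ) ∣ ((3 : ℤ) ^ (c : ℕ) - 3 ^ (d : ℕ)) - (3 ^ (a : ℕ) - 3 ^ (b : ℕ))) :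
    a = c ∧ b = d := by
  have hb : ∀ s : Fin K, (0 : ℤ) < 3 ^ (s : ℕ) ∧ (3 : ℤ) ^ (s : ℕ) * 3 ≤ 3 ^ K := by
    intro s
    refine ⟨by positivity, ?_⟩
    rw [← pow_succ]
    exact pow_le_pow_right₀ (by norm_num) s.2
  have ha := hb a
  have hb' := hb b
  have hc := hb c
  have hd := hb d
  have h0 : ((3 : ℤ) ^ (c : ℕ) - 3 ^ (d : ℕ)) - (3 ^ (a : ℕ) - 3 ^ (b : ℕ)) = 0 := by
    apply Int.eq_zero_of_abs_lt_dvd h
    push_cast
    rw [pow_succ, abs_lt]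
    constructor <;> linarith [ha.1, ha.2, hb'.1, hb'.2, hc.1, hc.2, hd.1, hd.2]
  have h1 : (3 : ℕ) ^ (a : ℕ) + 3 ^ (d : ℕ) = 3 ^ (c : ℕ) + 3 ^ (b : ℕ) := by
    zify
    linarith
  obtain ⟨h2, h3⟩ := sidon_nat a b c d (fun h => hab (Fin.ext h)) (fun h => hcd (Fin.ext h)) h1
  exact ⟨Fin.ext h2, Fin.ext h3⟩

variable {H : Type*} [NormedAddCommGroup H] [InnerProductSpace ℂ H] [CompleteSpace H]

/-- `u m = ∑ ζ^(m i) p_i` -/
noncomputable def uu {M : ℕ} (ζ : ℂ) (p : Fin M → H →L[ℂ] H) (m : ℤ) : H →L[ℂ] H :=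
  ∑ i : Fin M, ((ζ ^ m) ^ (i : ℕ)) • p i

theorem uu_mem {A : VonNeumannAlgebra H} {M : ℕ} (ζ : ℂ) {p : Fin M → H →L[ℂ] H}
    (hp : PartOf A 1 p) (m : ℤ) : uu ζ p m ∈ A := by
  unfold uu
  exact sum_mem fun i _ => A.toStarSubalgebra.smul_mem (hp.1 i).1 _

theorem uu_mul {A : VonNeumannAlgebra H} {M : ℕ} {ζ : ℂ} (hζ : ζ ≠ 0) {p : Fin M → H →L[ℂ] H}
    (hp : PartOf A 1 p) (l m : ℤ) : uu ζ p l * uu ζ p m = uu ζ p (l + m) := by
  unfold uu
  rw [Finset.sum_mul]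
  refine Finset.sum_congr rfl fun i _ => ?_
  rw [Finset.mul_sum, Finset.sum_eq_single i]
  · rw [smul_mul_smul_comm, (hp.1 i).2.isIdempotentElem.eq, zpow_add₀ hζ, mul_pow]
  · intro j _ hj
    rw [smul_mul_smul_comm, hp.2.1 i j hj.symm, smul_zero]
  · intro h; exact absurd (Finset.mem_univ _) h

theorem uu_zero {A : VonNeumannAlgebra H} {M : ℕ} (ζ : ℂ) {p : Fin M → H →L[ℂ] H}
    (hp : PartOf A 1 p) : uu ζ p 0 = 1 := by
  unfold uu
  simp [hp.2.2]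

theorem uu_star {A : VonNeumannAlgebra H} {M : ℕ} {ζ : ℂ} (hζ : ‖ζ‖ = 1) {p : Fin M → H →L[ℂ] H}
    (hp : PartOf A 1 p) (m : ℤ) : star (uu ζ p m) = uu ζ p (-m) := by
  unfold uu
  rw [star_sum]
  refine Finset.sum_congr rfl fun i _ => ?_
  rw [star_smul, (hp.1 i).2.isSelfAdjoint.star_eq]
  congr 1
  rw [RCLike.star_def, map_pow, map_zpow₀, zpow_neg, ← inv_zpow]
  congr 2
  rw [Complex.inv_eq_conj hζ]

theorem uu_inner {A : VonNeumannAlgebra H} (hcomm : ∀ x ∈ A, ∀ y ∈ A, x * y = y * x) {M : ℕ}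
    {ζ : ℂ} (hζ : ‖ζ‖ = 1) {p : Fin M → H →L[ℂ] H} (hp : PartOf A 1 p) (ξ : H) (a : H →L[ℂ] H)
    (ha : a ∈ A) (l m : ℤ) :
    inner ℂ (uu ζ p l ξ) (a (uu ζ p m ξ)) = inner ℂ ξ (a (uu ζ p (m - l) ξ)) := by
  have hζ0 : ζ ≠ 0 := by
    intro h; rw [h, norm_zero] at hζ; norm_num at hζ
  have h1 : inner ℂ (uu ζ p l ξ) (a (uu ζ p m ξ))
      = inner ℂ ξ ((star (uu ζ p l)) (a (uu ζ p m ξ))) := by
    rw [ContinuousLinearMap.star_eq_adjoint, ContinuousLinearMap.adjoint_inner_right]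
  rw [h1, uu_star hζ hp]
  have h2 : uu ζ p (-l) * (a * uu ζ p m) = a * uu ζ p (m - l) := by
    rw [← mul_assoc, hcomm _ (uu_mem ζ hp _) a ha, mul_assoc, uu_mul hζ0 hp]
    congr 2
    ring
  have h3 := congrArg (fun S : H →L[ℂ] H => S ξ) h2
  change uu ζ p (-l) (a (uu ζ p m ξ)) = a (uu ζ p (m - l) ξ) at h3
  rw [h3]

theorem uu_orth {A : VonNeumannAlgebra H} {M : ℕ} (hM : 0 < M) {ζ : ℂ} (hζ : IsPrimitiveRoot ζ M)
    {p : Fin M → H →L[ℂ] H} (hp : PartOf A 1 p) (ξ : H) (hm : ∀ i, ‖p i ξ‖ ^ 2 = 1 / (M : ℝ))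
    (m : ℤ) : inner ℂ ξ (uu ζ p m ξ) = if (M : ℤ) ∣ m then 1 else 0 := by
  have h1 : ∀ i, inner ℂ ξ (p i ξ) = ((1 / (M : ℝ) : ℝ) : ℂ) := by
    intro i
    rw [← proj_idem (hp.1 i).2, ← star_apply (hp.1 i).2, inner_self_eq_norm_sq_to_K, ← hm i]
    norm_cast
  have hM' : (M : ℂ) ≠ 0 := by
    have : M ≠ 0 := hM.ne'
    exact_mod_cast this
  unfold uu
  rw [ContinuousLinearMap.sum_apply, inner_sum]
  have h2 : ∀ i : Fin M, inner ℂ ξ ((((ζ ^ m) ^ (i : ℕ)) • p i) ξ)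
      = (ζ ^ m) ^ (i : ℕ) * ((1 / (M : ℝ) : ℝ) : ℂ) := by
    intro i
    rw [ContinuousLinearMap.smul_apply, inner_smul_right, h1]
  simp only [h2]
  rw [← Finset.sum_mul]
  have h3 : ∑ i : Fin M, (ζ ^ m) ^ (i : ℕ) = ∑ i ∈ Finset.range M, (ζ ^ m) ^ i :=
    Fin.sum_univ_eq_sum_range (fun i => (ζ ^ m) ^ i) M
  rw [h3]
  by_cases hdvd : (M : ℤ) ∣ m
  · have h4 : ζ ^ m = 1 := (hζ.zpow_eq_one_iff_dvd m).2 hdvd
    rw [if_pos hdvd, h4]
    simp
    field_simp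
  · have h4 : ζ ^ m ≠ 1 := fun h => hdvd ((hζ.zpow_eq_one_iff_dvd m).1 h)
    rw [if_neg hdvd, geom_sum_eq h4]
    have h5 : (ζ ^ m) ^ M = 1 := by
      rw [← zpow_natCast, ← zpow_mul, mul_comm, zpow_mul, zpow_natCast, hζ.pow_eq_one, one_zpow]
    rw [h5]
    simp

end Vale.Agent.P078
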