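import Vale.Agent.Lib.P078.Defs

/-!
# P078: fine partitions in a diffuse maximal abelian subalgebra of `B(H)`
-/

namespace Vale.Agent.P078

open Finset

variable {H : Type*} [NormedAddCommGroup H] [InnerProductSpace ℂ H] [CompleteSpace H]

/-- `A` is a masa of `B(H)`: commutant equal to itself. -/
theorem IsMASA.commutant_eq {A : VonNeumannAlgebra H} (h : IsMASA A (full H)) :
    A.commutant = A := by
  ext x
  rw [VonNeumannAlgebra.mem_commutant_iff]
  constructor
  · intro hx
    exact h.2.2 x (by trivial) (fun y hy => (hx y hy).symm)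
  · intro hx g hg
    exact h.2.1 g hg x hx

/-- Invariant subspaces. -/
def Inv (A : VonNeumannAlgebra H) (K : Submodule ℂ H) : Prop := ∀ T ∈ A, ∀ v ∈ K, T v ∈ K

theorem proj_mem {A : VonNeumannAlgebra H} (hc : A.commutant = A) (K : Submodule ℂ H)
    [K.HasOrthogonalProjection] (hK : Inv A K) : K.starProjection ∈ A := by
  rw [VonNeumannAlgebra.IsStarProjection.mem_iff isStarProjection_starProjection, hc]
  intro y hy
  rw [Module.End.mem_invtSubmodule_iff_forall_mem_of_mem]
  intro v hv
  rw [Submodule.range_starProjection] at hv ⊢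
  exact hK y hy v hv

theorem inv_orth {A : VonNeumannAlgebra H} {K : Submodule ℂ H} (hK : Inv A K) : Inv A Kᗮ := by
  intro T hT v hv
  rw [Submodule.mem_orthogonal]
  intro u hu
  have h1 : (star T) u ∈ K := hK _ (star_mem hT) u hu
  have h2 : inner ℂ ((star T) u) v = inner ℂ u (T v) := by
    rw [ContinuousLinearMap.star_eq_adjoint, ContinuousLinearMap.adjoint_inner_left]
  rw [← h2]
  exact (Submodule.mem_orthogonal K v).1 hv _ h1

theorem inv_range {A : VonNeumannAlgebra H} (ha : ∀ x ∈ A, ∀ y ∈ A, x * y = y * x)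
    {e : H →L[ℂ] H} (he : e ∈ A) : Inv A e.range := by
  rintro T hT _ ⟨v, rfl⟩
  refine ⟨T v, ?_⟩
  have := congrArg (fun S : H →L[ℂ] H => S v) (ha e he T hT)
  simpa using this

/-- partition of the projection `e` -/
def PartOf (A : VonNeumannAlgebra H) (e : H →L[ℂ] H) {ι : Type} [Fintype ι]
    (p : ι → H →L[ℂ] H) : Prop :=
  (∀ i, p i ∈ A ∧ IsStarProjection (p i)) ∧ (∀ i j, i ≠ j → p i * p j = 0) ∧ ∑ i, p i = e

/-- mass -/
noncomputable def mass (F : Finset H) (e : H →L[ℂ] H) : ℝ := ∑ v ∈ F, ‖e v‖ ^ 2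

theorem mass_nonneg (F : Finset H) (e : H →L[ℂ] H) : 0 ≤ mass F e :=
  Finset.sum_nonneg fun _ _ => by positivity

/-- `e` has an `η`-fine partition -/
def HasFine (A : VonNeumannAlgebra H) (F : Finset H) (η : ℝ) (e : H →L[ℂ] H) : Prop :=
  ∃ (ι : Type) (_ : Fintype ι) (p : ι → H →L[ℂ] H), PartOf A e p ∧ ∀ i, mass F (p i) ≤ η

theorem star_apply {e : H →L[ℂ] H} (he : IsStarProjection e) (u v : H) :
    inner ℂ (e u) v = inner ℂ u (e v) := by
  have h := he.isSelfAdjoint
  rw [IsSelfAdjoint, ContinuousLinearMap.star_eq_adjoint] at h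
  conv_lhs => rw [← h]
  rw [ContinuousLinearMap.adjoint_inner_left]

theorem PartOf.le {A : VonNeumannAlgebra H} {e : H →L[ℂ] H} {ι : Type} [Fintype ι]
    {p : ι → H →L[ℂ] H} (h : PartOf A e p) (i : ι) : e * p i = p i ∧ p i * e = p i := by
  rw [← h.2.2]
  constructor
  · rw [Finset.sum_mul, Finset.sum_eq_single i]
    · exact (h.1 i).2.isIdempotentElem
    · intro j _ hj
      exact h.2.1 j i hj
    · intro hi
      exact absurd (Finset.mem_univ i) hi
  · rw [Finset.mul_sum, Finset.sum_eq_single i]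
    · exact (h.1 i).2.isIdempotentElem
    · intro j _ hj
      exact h.2.1 i j hj.symm
    · intro hi
      exact absurd (Finset.mem_univ i) hi

theorem hasFine_add {A : VonNeumannAlgebra H} {F : Finset H} {η : ℝ} {e f : H →L[ℂ] H}
    (he : HasFine A F η e) (hf : HasFine A F η f) (hef : e * f = 0) (hfe : f * e = 0) :
    HasFine A F η (e + f) := by
  obtain ⟨ι, _, p, hp, hpm⟩ := he
  obtain ⟨κ, _, q, hq, hqm⟩ := hf
  refine ⟨ι ⊕ κ, inferInstance, Sum.elim p q, ⟨?_, ?_, ?_⟩, ?_⟩
  · rintro (i | i)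
    · exact hp.1 i
    · exact hq.1 i
  · rintro (i | i) (j | j) hij
    · exact hp.2.1 i j (fun h => hij (by rw [h]))
    · simp only [Sum.elim_inl, Sum.elim_inr]
      rw [← (hp.le i).2, ← (hq.le j).1, mul_assoc, ← mul_assoc e, hef]
      simp
    · simp only [Sum.elim_inl, Sum.elim_inr]
      rw [← (hq.le i).2, ← (hp.le j).1, mul_assoc, ← mul_assoc f, hfe]
      simp
    · exact hq.2.1 i j (fun h => hij (by rw [h]))
  · simp [hp.2.2, hq.2.2]
  · rintro (i | i)
    · exact hpm i
    · exact hqm i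

theorem hasFine_zero (A : VonNeumannAlgebra H) (F : Finset H) (η : ℝ) : HasFine A F η 0 :=
  ⟨Empty, inferInstance, fun i => i.elim, ⟨fun i => i.elim, fun i => i.elim, by simp⟩,
    fun i => i.elim⟩

theorem hasFine_of_mass_le {A : VonNeumannAlgebra H} {F : Finset H} {η : ℝ} {e : H →L[ℂ] H}
    (he : e ∈ A) (hs : IsStarProjection e) (hm : mass F e ≤ η) : HasFine A F η e :=
  ⟨Unit, inferInstance, fun _ => e, ⟨fun _ => ⟨he, hs⟩, fun i j hij => absurd (Subsingleton.elim i j) hij,
    by simp⟩, fun _ => hm⟩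

/-- Continuity along chains. -/
theorem chain_cont (c : Set (Submodule ℂ H)) (hc : IsChain (· ≤ ·) c) (hne : c.Nonempty)
    (v : H) (η : ℝ) (hη : 0 < η) :
    ∃ K ∈ c, ∀ L ∈ c, K ≤ L →
      ‖(Lᗮ.starProjection - (sSup c)ᗮ.starProjection) v‖ ≤ η := by
  set Q := (sSup c)ᗮ.starProjection with hQ
  have h1 : v - Q v ∈ (sSup c)ᗮᗮ := Submodule.sub_starProjection_mem_orthogonal v
  rw [Submodule.orthogonal_orthogonal_eq_closure] at h1
  have h2 : v - Q v ∈ closure ((sSup c : Submodule ℂ H) : Set H) := h1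
  rw [Metric.mem_closure_iff] at h2
  obtain ⟨y, hy, hyd⟩ := h2 η hη
  have hy' : y ∈ sSup c := hy
  rw [Submodule.mem_sSup_of_directed hne hc.directedOn] at hy'
  obtain ⟨K, hK, hyK⟩ := hy'
  refine ⟨K, hK, fun L hL hKL => ?_⟩
  have hyL : y ∈ L := hKL hyK
  have h3 : Lᗮ.starProjection y = 0 := by
    rw [Submodule.starProjection_apply_eq_zero_iff]
    exact Submodule.le_orthogonal_orthogonal L hyL
  have hle : (sSup c)ᗮ ≤ Lᗮ := Submodule.orthogonal_le (le_sSup hL)
  have h4 : Lᗮ.starProjection (Q v) = Q v := by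
    rw [Submodule.starProjection_eq_self_iff]
    exact hle (Submodule.starProjection_apply_mem _ v)
  have h5 : (Lᗮ.starProjection - Q) v = Lᗮ.starProjection (v - Q v - y) := by
    rw [map_sub, map_sub, h3, h4]
    simp
  rw [h5]
  refine (Submodule.norm_starProjection_apply_le _ _).trans ?_
  rw [← dist_eq_norm]
  exact hyd.le

/-- Continuity along chains, finitely many vectors. -/
theorem chain_cont_mass (c : Set (Submodule ℂ H)) (hc : IsChain (· ≤ ·) c) (hne : c.Nonempty)
    (F : Finset H) (η : ℝ) (hη : 0 < η) :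
    ∃ K ∈ c, mass F (Kᗮ.starProjection - (sSup c)ᗮ.starProjection) ≤ η := by
  classical
  set N : ℝ := (F.card : ℝ) + 1 with hN
  have hNpos : 0 < N := by positivity
  have key : ∀ G : Finset H, ∃ K ∈ c, ∀ L ∈ c, K ≤ L → ∀ v ∈ G,
      ‖(Lᗮ.starProjection - (sSup c)ᗮ.starProjection) v‖ ≤ Real.sqrt (η / N) := by
    intro G
    induction G using Finset.induction_on with
    | empty =>
      obtain ⟨K, hK⟩ := hne
      exact ⟨K, hK, by simp⟩
    | insert v G _ ih =>
      obtain ⟨K, hK, hK'⟩ := ih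
      obtain ⟨K₂, hK₂, hK₂'⟩ := chain_cont c hc hne v (Real.sqrt (η / N)) (by positivity)
      have hmax : ∃ M ∈ c, K ≤ M ∧ K₂ ≤ M := by
        rcases hc.total hK hK₂ with h | h
        · exact ⟨K₂, hK₂, h, le_rfl⟩
        · exact ⟨K, hK, le_rfl, h⟩
      obtain ⟨M, hM, h1, h2⟩ := hmax
      refine ⟨M, hM, fun L hL hML w hw => ?_⟩
      rcases Finset.mem_insert.1 hw with rfl | hw
      · exact hK₂' L hL (h2.trans hML)
      · exact hK' L hL (h1.trans hML) w hw
  obtain ⟨K, hK, hK'⟩ := key F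
  refine ⟨K, hK, ?_⟩
  unfold mass
  have h1 : ∀ v ∈ F, ‖(Kᗮ.starProjection - (sSup c)ᗮ.starProjection) v‖ ^ 2 ≤ η / N := by
    intro v hv
    have := hK' K hK le_rfl v hv
    calc _ ≤ Real.sqrt (η / N) ^ 2 := by gcongr
      _ = η / N := Real.sq_sqrt (by positivity)
  refine (Finset.sum_le_sum h1).trans ?_
  rw [Finset.sum_const, nsmul_eq_mul]
  rw [mul_div_assoc', div_le_iff₀ hNpos]
  nlinarith

theorem inv_sSup {A : VonNeumannAlgebra H} (c : Set (Submodule ℂ H)) (hc : ∀ K ∈ c, Inv A K) :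
    Inv A (sSup c) := by
  intro T hT v hv
  have h1 : sSup c ≤ (sSup c).comap (T : H →ₗ[ℂ] H) := by
    apply sSup_le
    intro K hK w hw
    exact le_sSup hK (hc K hK T hT w hw)
  exact h1 hv

/-- Fine partitions exist in a diffuse masa. -/
theorem exists_fine {A : VonNeumannAlgebra H} (hc : A.commutant = A) (hd : IsDiffuse A)
    (F : Finset H) (η : ℝ) (hη : 0 < η) : HasFine A F η (1 : H →L[ℂ] H) := by
  have ha : ∀ x ∈ A, ∀ y ∈ A, x * y = y * x := by
    intro x hx y hy
    rw [← hc] at hx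
    exact (VonNeumannAlgebra.mem_commutant_iff.1 hx y hy).symm
  by_contra hcon
  set S : Set (Submodule ℂ H) := {K | Inv A K ∧ ¬ HasFine A F η Kᗮ.starProjection} with hS
  have hbot : (⊥ : Submodule ℂ H) ∈ S := by
    refine ⟨?_, ?_⟩
    · intro T _ v hv
      rw [Submodule.mem_bot] at hv ⊢
      rw [hv, map_zero]
    · have : (⊥ : Submodule ℂ H)ᗮ.starProjection = (1 : H →L[ℂ] H) := by
        ext v
        rw [(Submodule.starProjection_eq_self_iff).2]
        · rfl
        · rw [Submodule.bot_orthogonal_eq_top]; trivial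
      rw [this]
      exact hcon
  obtain ⟨K, -, hK⟩ := zorn_le_nonempty₀ S (by
    intro c hcS hchain y hy
    refine ⟨sSup c, ⟨inv_sSup c (fun K hK => (hcS hK).1), ?_⟩, fun z hz => le_sSup hz⟩
    intro hf
    obtain ⟨K, hK, hKm⟩ := chain_cont_mass c hchain ⟨y, hy⟩ F η hη
    apply (hcS hK).2
    have hle : (sSup c)ᗮ ≤ Kᗮ := Submodule.orthogonal_le (le_sSup hK)
    have e1 : Kᗮ.starProjection * (sSup c)ᗮ.starProjection = (sSup c)ᗮ.starProjection := by
      ext v
      exact (Submodule.starProjection_eq_self_iff).2 (hle (Submodule.starProjection_apply_mem _ v))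
    have hs1 : IsStarProjection (Kᗮ.starProjection) := isStarProjection_starProjection
    have hs2 : IsStarProjection ((sSup c)ᗮ.starProjection) := isStarProjection_starProjection
    have hm1 : Kᗮ.starProjection ∈ A := proj_mem hc _ (inv_orth (hcS hK).1)
    have hm2 : (sSup c)ᗮ.starProjection ∈ A :=
      proj_mem hc _ (inv_orth (inv_sSup c (fun K hK => (hcS hK).1)))
    have e2 : (sSup c)ᗮ.starProjection * Kᗮ.starProjection = (sSup c)ᗮ.starProjection := by
      rw [ha _ hm2 _ hm1, e1]
    have h3 : HasFine A F η (Kᗮ.starProjection - (sSup c)ᗮ.starProjection) :=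
      hasFine_of_mass_le (sub_mem hm1 hm2) (hs2.sub_of_mul_eq_left hs1 e2) hKm
    have h4 := hasFine_add hf h3
      (by rw [mul_sub, e2, hs2.isIdempotentElem.eq, sub_self])
      (by rw [sub_mul, e1, hs2.isIdempotentElem.eq, sub_self])
    simpa using h4) ⊥ hbot
  have hKS : K ∈ S := hK.prop
  set e := Kᗮ.starProjection with he
  have heA : e ∈ A := proj_mem hc _ (inv_orth hKS.1)
  have hes : IsStarProjection e := isStarProjection_starProjection
  have he0 : e ≠ 0 := by
    intro h
    apply hKS.2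
    rw [← he, h]
    exact hasFine_zero A F η
  obtain ⟨f, hfA, hfs, hf0, hfe, hef⟩ := hd e heA hes he0
  have hfe' : f * e = f := by rw [ha f hfA e heA, hef]
  have hgA : e - f ∈ A := sub_mem heA hfA
  have hgs : IsStarProjection (e - f) := hfs.sub_of_mul_eq_left hes hfe'
  -- one of the two parts is not fine
  have hmaxi : ∀ g : H →L[ℂ] H, g ∈ A → IsStarProjection g → e * g = g → g ≠ e →
      HasFine A F η g := by
    intro g hgA hgs heg hge
    by_contra hng
    have hrange : g.range.HasOrthogonalProjection := by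
      obtain ⟨h, _⟩ := isStarProjection_iff_eq_starProjection_range.1 hgs
      exact h
    have hgr : g = (g.range)ᗮᗮ.starProjection := by
      obtain ⟨h, h'⟩ := isStarProjection_iff_eq_starProjection_range.1 hgs
      have h2 : (g.range)ᗮᗮ = g.range := Submodule.orthogonal_orthogonal _
      ext v
      symm
      apply Submodule.eq_starProjection_of_mem_of_inner_eq_zero
      · rw [h2]; exact ⟨v, rfl⟩
      · intro w hw
        rw [h2] at hw
        obtain ⟨u, rfl⟩ := hw
        rw [inner_sub_left]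
        have h5 : inner ℂ (g v) ((g : H →ₗ[ℂ] H) u) = inner ℂ v ((g : H →ₗ[ℂ] H) u) := by
          have := star_apply hgs v ((g : H →ₗ[ℂ] H) u)
          rw [this]
          have h6 : g ((g : H →ₗ[ℂ] H) u) = (g : H →ₗ[ℂ] H) u := by
            have := congrArg (fun S : H →L[ℂ] H => S u) hgs.isIdempotentElem.eq
            simpa using this
          rw [h6]
        rw [h5, sub_self]
    have hmem : (g.range)ᗮ ∈ S := by
      refine ⟨inv_orth (inv_range ha hgA), ?_⟩
      rw [← hgr]
      exact hng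
    have hle : K ≤ (g.range)ᗮ := by
      refine (Submodule.le_orthogonal_orthogonal K).trans (Submodule.orthogonal_le ?_)
      rintro _ ⟨v, rfl⟩
      have h7 : g v = e (g v) := by
        have := congrArg (fun S : H →L[ℂ] H => S v) heg
        simpa using this.symm
      rw [ContinuousLinearMap.coe_coe, h7]
      exact Submodule.starProjection_apply_mem _ _
    have heq : (g.range)ᗮ ≤ K := hK.le_of_ge hmem hle
    apply hge
    have hKeq : K = (g.range)ᗮ := le_antisymm hle heq
    rw [hgr, he]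
    congr 1
    rw [hKeq]
  apply hKS.2
  have h1 := hmaxi f hfA hfs hef hfe
  have h2 := hmaxi (e - f) hgA hgs (by rw [mul_sub, hes.isIdempotentElem.eq, hef])
    (by intro h; apply hf0; have := congrArg (fun T => e - T) h; simpa using this)
  have h3 := hasFine_add h1 h2 (by rw [mul_sub, hfe', hfs.isIdempotentElem.eq, sub_self])
    (by rw [sub_mul, hef, hfs.isIdempotentElem.eq, sub_self])
  simpa [he] using h3

end Vale.Agent.P078
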