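import Vale.Agent.Lib.P078.Wot
import Vale.Agent.Lib.P078.Color

/-!
# P078: the upper bound for diffuse masas of `B(H)`
-/

namespace Vale.Agent.P078

open Finset Filter Topology

variable {H : Type*} [NormedAddCommGroup H] [InnerProductSpace ℂ H] [CompleteSpace H]

theorem pythag {A : VonNeumannAlgebra H} {ι : Type} [Fintype ι] {p : ι → H →L[ℂ] H}
    (hp : PartOf A 1 p) (v : H) : ∑ i, ‖p i v‖ ^ 2 = ‖v‖ ^ 2 := by
  have h1 : ∀ i, ((‖p i v‖ ^ 2 : ℝ) : ℂ) = inner ℂ (p i v) v := by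
    intro i
    have h2 : p i (p i v) = p i v := by
      have := congrArg (fun S : H →L[ℂ] H => S v) (hp.1 i).2.isIdempotentElem.eq
      simpa using this
    have h3 : inner ℂ (p i v) v = inner ℂ (p i v) (p i v) := by
      conv_lhs => rw [← h2]
      rw [star_apply (hp.1 i).2]
    rw [h3, inner_self_eq_norm_sq_to_K]
    norm_cast
  have h4 : ((∑ i, ‖p i v‖ ^ 2 : ℝ) : ℂ) = ((‖v‖ ^ 2 : ℝ) : ℂ) := by
    push_cast
    have h5 : ∀ i, ((‖p i v‖ : ℂ) ^ 2) = inner ℂ (p i v) v := by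
      intro i
      rw [← h1 i]; push_cast; rfl
    simp only [h5]
    rw [← sum_inner, ← ContinuousLinearMap.sum_apply, hp.2.2]
    rw [ContinuousLinearMap.one_apply, inner_self_eq_norm_sq_to_K]
    norm_cast
  exact_mod_cast h4

theorem part_apply {A : VonNeumannAlgebra H} {ι : Type} [Fintype ι] [DecidableEq ι]
    {p : ι → H →L[ℂ] H}
    (hp : PartOf A 1 p) (x : H →L[ℂ] H) (v : H) (j : ι) :
    p j ((∑ i, p i * x * p i) v) = p j (x (p j v)) := by
  have h1 : p j * (∑ i, p i * x * p i) = p j * x * p j := by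
    rw [Finset.mul_sum, Finset.sum_eq_single j]
    · rw [← mul_assoc, ← mul_assoc, (hp.1 j).2.isIdempotentElem.eq]
    · intro i _ hi
      rw [← mul_assoc, ← mul_assoc, hp.2.1 j i hi.symm, zero_mul, zero_mul]
    · intro h; exact absurd (Finset.mem_univ _) h
  have := congrArg (fun S : H →L[ℂ] H => S v) h1
  simpa using this

theorem norm_pinch_le {A : VonNeumannAlgebra H} {ι : Type} [Fintype ι] {p : ι → H →L[ℂ] H}
    (hp : PartOf A 1 p) (x : H →L[ℂ] H) : ‖∑ i, p i * x * p i‖ ≤ ‖x‖ := by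
  classical
  refine ContinuousLinearMap.opNorm_le_bound _ (norm_nonneg _) fun v => ?_
  refine le_of_sq_le_sq ?_ (by positivity)
  rw [← pythag hp ((∑ i, p i * x * p i) v), mul_pow, ← pythag hp v, Finset.mul_sum]
  refine Finset.sum_le_sum fun j _ => ?_
  rw [part_apply hp x v j]
  have h1 : ‖p j (x (p j v))‖ ≤ ‖x (p j v)‖ := by
    have h2 := pythag hp (x (p j v))
    have h3 : ‖p j (x (p j v))‖ ^ 2 ≤ ∑ i, ‖p i (x (p j v))‖ ^ 2 :=
      Finset.single_le_sum (f := fun i => ‖p i (x (p j v))‖ ^ 2) (fun i _ => by positivity)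
        (Finset.mem_univ j)
    rw [h2] at h3
    exact le_of_sq_le_sq h3 (norm_nonneg _)
  have h4 : ‖x (p j v)‖ ≤ ‖x‖ * ‖p j v‖ := x.le_opNorm _
  calc ‖p j (x (p j v))‖ ^ 2 ≤ (‖x‖ * ‖p j v‖) ^ 2 := by gcongr; exact h1.trans h4
    _ = ‖x‖ ^ 2 * ‖p j v‖ ^ 2 := by ring

theorem mass_mul_le {A : VonNeumannAlgebra H} (F : Finset H) (e f : H →L[ℂ] H) (he : ‖e‖ ≤ 1) :
    mass F (e * f) ≤ mass F f := by
  unfold mass
  refine Finset.sum_le_sum fun v _ => ?_
  have : ‖(e * f) v‖ ≤ ‖f v‖ := by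
    change ‖e (f v)‖ ≤ ‖f v‖
    exact (e.le_opNorm _).trans (by nlinarith [norm_nonneg (f v)])
  gcongr

theorem norm_proj_le {e : H →L[ℂ] H} (he : IsStarProjection e) : ‖e‖ ≤ 1 := by
  obtain ⟨K, hK, rfl⟩ := isStarProjection_iff_eq_starProjection.1 he
  exact K.starProjection_norm_le

/-- refinement -/
theorem exists_refine {A : VonNeumannAlgebra H} (hc : A.commutant = A) (hd : IsDiffuse A)
    (F : Finset H) (η : ℝ) (hη : 0 < η) (E : Finset (H →L[ℂ] H)) :
    ∃ (ι : Type) (_ : Fintype ι) (p : ι → H →L[ℂ] H), PartOf A 1 p ∧ (∀ i, mass F (p i) ≤ η) ∧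
      ∀ e ∈ E, e ∈ A → IsStarProjection e → ∀ i, e * p i = p i ∨ e * p i = 0 := by
  classical
  have ha := masa_comm hc
  induction E using Finset.induction_on with
  | empty =>
    obtain ⟨ι, hι, p, hp, hpm⟩ := exists_fine hc hd F η hη
    exact ⟨ι, hι, p, hp, hpm, by simp⟩
  | insert e E _ ih =>
    obtain ⟨ι, hι, p, hp, hpm, hpE⟩ := ih
    by_cases he : e ∈ A ∧ IsStarProjection e
    · obtain ⟨heA, hes⟩ := he
      have h1e : IsStarProjection (1 - e) := hes.one_sub
      have h1eA : (1 - e) ∈ A := sub_mem (one_mem _) heA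
      have c1 : ∀ i, e * p i = p i * e := fun i => ha _ heA _ (hp.1 i).1
      have c2 : ∀ i, (1 - e) * p i = p i * (1 - e) := fun i => ha _ h1eA _ (hp.1 i).1
      refine ⟨ι ⊕ ι, inferInstance, Sum.elim (fun i => e * p i) (fun i => (1 - e) * p i),
        ⟨?_, ?_, ?_⟩, ?_, ?_⟩
      · rintro (i | i)
        · exact ⟨mul_mem heA (hp.1 i).1, hes.mul (hp.1 i).2 (c1 i)⟩
        · exact ⟨mul_mem h1eA (hp.1 i).1, h1e.mul (hp.1 i).2 (c2 i)⟩
      · rintro (i | i) (j | j) hij
        · have : i ≠ j := fun h => hij (by rw [h])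
          simp only [Sum.elim_inl]
          rw [c1 i, mul_assoc, ← mul_assoc e e, hes.isIdempotentElem.eq, c1 j, ← mul_assoc,
            hp.2.1 i j this, zero_mul]
        · simp only [Sum.elim_inl, Sum.elim_inr]
          rw [c1 i, mul_assoc, ← mul_assoc e, hes.mul_one_sub_self]
          simp
        · simp only [Sum.elim_inl, Sum.elim_inr]
          rw [c2 i, mul_assoc, ← mul_assoc (1 - e), hes.one_sub_mul_self]
          simp
        · have : i ≠ j := fun h => hij (by rw [h])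
          simp only [Sum.elim_inr]
          rw [c2 i, mul_assoc, ← mul_assoc (1 - e) (1 - e), h1e.isIdempotentElem.eq, c2 j,
            ← mul_assoc, hp.2.1 i j this, zero_mul]
      · simp only [Fintype.sum_sum_type, Sum.elim_inl, Sum.elim_inr]
        rw [← Finset.mul_sum, ← Finset.mul_sum, hp.2.2]
        simp
      · rintro (i | i)
        · exact (mass_mul_le (A := A) F e (p i) (norm_proj_le hes)).trans (hpm i)
        · exact (mass_mul_le (A := A) F (1 - e) (p i) (norm_proj_le h1e)).trans (hpm i)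
      · intro f hf hfA hfs i
        rcases Finset.mem_insert.1 hf with rfl | hf
        · rcases i with i | i
          · left
            simp only [Sum.elim_inl]
            rw [← mul_assoc, hes.isIdempotentElem.eq]
          · right
            simp only [Sum.elim_inr]
            rw [← mul_assoc, hes.mul_one_sub_self, zero_mul]
        · have c3 : f * e = e * f := ha _ hfA _ heA
          have c4 : f * (1 - e) = (1 - e) * f := ha _ hfA _ h1eA
          rcases i with i | i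
          · simp only [Sum.elim_inl]
            rcases hpE f hf hfA hfs i with h | h
            · left; rw [← mul_assoc, c3, mul_assoc, h]
            · right; rw [← mul_assoc, c3, mul_assoc, h, mul_zero]
          · simp only [Sum.elim_inr]
            rcases hpE f hf hfA hfs i with h | h
            · left; rw [← mul_assoc, c4, mul_assoc, h]
            · right; rw [← mul_assoc, c4, mul_assoc, h, mul_zero]
    · refine ⟨ι, hι, p, hp, hpm, fun f hf hfA hfs i => ?_⟩
      rcases Finset.mem_insert.1 hf with rfl | hf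
      · exact absurd ⟨hfA, hfs⟩ he
      · exact hpE f hf hfA hfs i

/-- The expectation. -/
theorem exists_expectation {A : VonNeumannAlgebra H} (hc : A.commutant = A) (hd : IsDiffuse A)
    (x : H →L[ℂ] H) (hx : IsSelfAdjoint x) :
    ∃ T ∈ A, IsSelfAdjoint T ∧ ‖T‖ ≤ ‖x‖ ∧ ∀ (V : Finset H) (η : ℝ), 0 < η →
      ∃ (ι : Type) (_ : Fintype ι) (p : ι → H →L[ℂ] H), PartOf A 1 p ∧ (∀ i, mass V (p i) ≤ η) ∧
        ∀ u ∈ V, ∀ v ∈ V, ‖inner ℂ ((∑ i, p i * x * p i) u - T u) v‖ ≤ η := by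
  classical
  have ha := masa_comm hc
  let I := Finset (H →L[ℂ] H) × Finset H × ℕ
  have hex := fun j : I => exists_refine hc hd j.2.1 (1 / ((j.2.2 : ℝ) + 1)) (by positivity) j.1
  choose ι hι p hp hpm hpE using hex
  let S : I → H →L[ℂ] H := fun j => ∑ i, p j i * x * p j i
  let U : Ultrafilter I := Ultrafilter.of (atTop : Filter I)
  have hU : (U : Filter I) ≤ atTop := Ultrafilter.of_le _
  obtain ⟨T, hTn, hT⟩ := exists_wot_lim U S ‖x‖ (fun j => norm_pinch_le (hp j) x)
  have hSs : ∀ j, IsSelfAdjoint (S j) := by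
    intro j
    change IsSelfAdjoint (∑ i, p j i * x * p j i)
    rw [IsSelfAdjoint, star_sum]
    refine Finset.sum_congr rfl fun i _ => ?_
    rw [star_mul, star_mul, hx.star_eq, (hp j).1 i |>.2.isSelfAdjoint.star_eq, mul_assoc]
  have hTA : T ∈ A := by
    apply mem_of_comm_proj hc
    intro e heA hes
    have hev : ∀ᶠ j in (U : Filter I), e * S j = S j * e := by
      apply hU
      filter_upwards [eventually_ge_atTop (({e}, ∅, 0) : I)] with j hj
      have hej : e ∈ j.1 := hj.1 (Finset.mem_singleton_self e)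
      change e * (∑ i, p j i * x * p j i) = (∑ i, p j i * x * p j i) * e
      rw [Finset.mul_sum, Finset.sum_mul]
      refine Finset.sum_congr rfl fun i _ => ?_
      have c1 : e * p j i = p j i * e := ha _ heA _ ((hp j).1 i).1
      rcases hpE j e hej heA hes i with h | h
      · rw [← mul_assoc, ← mul_assoc, h, mul_assoc (p j i * x), ← c1, h]
      · rw [← mul_assoc, ← mul_assoc, h, mul_assoc (p j i * x), ← c1, h]
        simp
    ext u
    apply ext_inner_right ℂ
    intro v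
    change inner ℂ (e (T u)) v = inner ℂ (T (e u)) v
    rw [star_apply hes]
    refine tendsto_nhds_unique (hT u (e v)) ?_
    refine (hT (e u) v).congr' ?_
    filter_upwards [hev] with j hj
    rw [← star_apply hes]
    have := congrArg (fun S : H →L[ℂ] H => S u) hj
    change e (S j u) = S j (e u) at this
    rw [this]
  have hTs : IsSelfAdjoint T := by
    rw [ContinuousLinearMap.isSelfAdjoint_iff_isSymmetric]
    intro u v
    change inner ℂ (T u) v = inner ℂ u (T v)
    rw [← inner_conj_symm u (T v)]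
    refine tendsto_nhds_unique (hT u v) ?_
    have h1 := (Complex.continuous_conj.tendsto _).comp (hT v u)
    refine h1.congr fun j => ?_
    simp only [Function.comp]
    rw [inner_conj_symm, sa_apply _ (hSs j)]
  refine ⟨T, hTA, hTs, hTn, fun V η hη => ?_⟩
  obtain ⟨n, hn⟩ := exists_nat_one_div_lt hη
  have h1 : ∀ᶠ j in (U : Filter I), ((∅, V, n) : I) ≤ j := hU (eventually_ge_atTop _)
  have h2 : ∀ᶠ j in (U : Filter I), ∀ u ∈ V, ∀ v ∈ V, ‖inner ℂ (S j u - T u) v‖ ≤ η := by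
    rw [Finset.eventually_all]
    intro u _
    rw [Finset.eventually_all]
    intro v _
    have h3 : Tendsto (fun j => inner ℂ (S j u) v - inner ℂ (T u) v) (U : Filter I) (𝓝 0) := by
      have := (hT u v).sub_const (inner ℂ (T u) v)
      simpa using this
    have h4 := (tendsto_zero_iff_norm_tendsto_zero.1 h3).eventually (Iio_mem_nhds hη)
    filter_upwards [h4] with j hj
    rw [inner_sub_left]
    exact le_of_lt hj
  obtain ⟨j, hj1, hj2⟩ := (h1.and h2).exists
  refine ⟨ι j, hι j, p j, hp j, fun i => ?_, hj2⟩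
  have h5 : mass V (p j i) ≤ mass j.2.1 (p j i) := by
    unfold mass
    exact Finset.sum_le_sum_of_subset_of_nonneg hj1.2.1 (fun _ _ _ => by positivity)
  have h6 : 1 / ((j.2.2 : ℝ) + 1) ≤ 1 / ((n : ℝ) + 1) := by
    have : (n : ℝ) ≤ (j.2.2 : ℝ) := by exact_mod_cast hj1.2.2
    gcongr
  linarith [hpm j i]

/-- Hilbert-Schmidt bound for the compression to a finite-dimensional subspace. -/
theorem compress_le (V : Submodule ℂ H) [FiniteDimensional ℂ V] {m : ℕ}
    (b : OrthonormalBasis (Fin m) ℂ V) (R : H →L[ℂ] H) (τ : ℝ) (hτ : 0 ≤ τ)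
    (h : ∑ i, ∑ j, ‖inner ℂ (R (b j : H)) (b i : H)‖ ^ 2 ≤ τ ^ 2) :
    ‖V.starProjection * R * V.starProjection‖ ≤ τ := by
  refine ContinuousLinearMap.opNorm_le_bound _ hτ fun v => ?_
  set q := V.starProjection with hq
  have hqn : ‖q v‖ ≤ ‖v‖ := Submodule.norm_starProjection_apply_le V v
  set d : Fin m → ℂ := fun j => inner ℂ (b j) (⟨q v, Submodule.starProjection_apply_mem V v⟩ : V)
    with hd
  have hqv : q v = ∑ j, d j • (b j : H) := by
    have h1 := b.sum_repr' (⟨q v, Submodule.starProjection_apply_mem V v⟩ : V)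
    have h2 := congrArg (fun z : V => (z : H)) h1
    simp only [Submodule.coe_sum, Submodule.coe_smul] at h2
    exact h2.symm
  have hdn : ∑ j, ‖d j‖ ^ 2 = ‖q v‖ ^ 2 := by
    have h1 := b.sum_sq_norm_inner_right (⟨q v, Submodule.starProjection_apply_mem V v⟩ : V)
    simpa [hd] using h1
  set w := (q * R * q) v with hw
  have hwV : w ∈ V := Submodule.starProjection_apply_mem V _
  have hwn : ‖w‖ ^ 2 = ∑ i, ‖inner ℂ (b i : H) (R (q v))‖ ^ 2 := by
    have h1 := b.sum_sq_norm_inner_right (⟨w, hwV⟩ : V)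
    have h2 : ∀ i, inner ℂ (b i) (⟨w, hwV⟩ : V) = inner ℂ (b i : H) (R (q v)) := by
      intro i
      change inner ℂ (b i : H) (q (R (q v))) = _
      rw [hq, ← Submodule.inner_starProjection_left_eq_right]
      rw [(Submodule.starProjection_eq_self_iff).2 (b i).2]
    simp only [h2] at h1
    rw [h1]
    rfl
  have h3 : ∀ i, ‖inner ℂ (b i : H) (R (q v))‖ ^ 2
      ≤ (∑ j, ‖inner ℂ (R (b j : H)) (b i : H)‖ ^ 2) * ‖v‖ ^ 2 := by
    intro i
    have h4 : inner ℂ (b i : H) (R (q v)) = ∑ j, d j * inner ℂ (b i : H) (R (b j : H)) := by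
      rw [hqv, map_sum, inner_sum]
      refine Finset.sum_congr rfl fun j _ => ?_
      rw [map_smul, inner_smul_right]
    have h5 : ‖inner ℂ (b i : H) (R (q v))‖
        ≤ ∑ j, ‖d j‖ * ‖inner ℂ (R (b j : H)) (b i : H)‖ := by
      rw [h4]
      refine (norm_sum_le _ _).trans (Finset.sum_le_sum fun j _ => ?_)
      rw [norm_mul, ← norm_inner_symm (R (b j : H)) (b i : H)]
    have h6 := Finset.sum_mul_sq_le_sq_mul_sq Finset.univ (fun j => ‖d j‖)
      (fun j => ‖inner ℂ (R (b j : H)) (b i : H)‖)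
    have h7 : ‖q v‖ ^ 2 ≤ ‖v‖ ^ 2 := by gcongr
    calc ‖inner ℂ (b i : H) (R (q v))‖ ^ 2
        ≤ (∑ j, ‖d j‖ * ‖inner ℂ (R (b j : H)) (b i : H)‖) ^ 2 := by gcongr
      _ ≤ (∑ j, ‖d j‖ ^ 2) * ∑ j, ‖inner ℂ (R (b j : H)) (b i : H)‖ ^ 2 := h6
      _ ≤ ‖v‖ ^ 2 * ∑ j, ‖inner ℂ (R (b j : H)) (b i : H)‖ ^ 2 := by
          rw [hdn]; gcongr
      _ = _ := by ring
  refine le_of_sq_le_sq ?_ (by positivity)
  rw [hwn, mul_pow]
  refine (Finset.sum_le_sum fun i _ => h3 i).trans ?_
  rw [← Finset.sum_mul]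
  gcongr

/-- the off-diagonal mass -/
theorem offdiag_le {A : VonNeumannAlgebra H} {ι : Type} [Fintype ι] {p : ι → H →L[ℂ] H}
    (hp : PartOf A 1 p) (x : H →L[ℂ] H) (u v : H) (η : ℝ) (hu : ∀ i, ‖p i u‖ ^ 2 ≤ η)
    (hη : 0 ≤ η) :
    ∑ a : ι × ι, ‖inner ℂ ((p a.1 * x * p a.2) v) u‖ ^ 2 ≤ η * ‖x‖ ^ 2 * ‖v‖ ^ 2 := by
  rw [Fintype.sum_prod_type, Finset.sum_comm]
  have h1 : ∀ J, ∑ I, ‖inner ℂ ((p I * x * p J) v) u‖ ^ 2 ≤ η * (‖x‖ ^ 2 * ‖p J v‖ ^ 2) := by
    intro J
    have h2 : ∀ I, ‖inner ℂ ((p I * x * p J) v) u‖ ^ 2 ≤ η * ‖p I (x (p J v))‖ ^ 2 := by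
      intro I
      have h3 : inner ℂ ((p I * x * p J) v) u = inner ℂ (p I (x (p J v))) (p I u) := by
        change inner ℂ (p I (x (p J v))) u = _
        rw [← star_apply (hp.1 I).2]
        have := congrArg (fun S : H →L[ℂ] H => S (x (p J v))) (hp.1 I).2.isIdempotentElem.eq
        change p I (p I (x (p J v))) = p I (x (p J v)) at this
        rw [this]
      rw [h3]
      calc ‖inner ℂ (p I (x (p J v))) (p I u)‖ ^ 2
          ≤ (‖p I (x (p J v))‖ * ‖p I u‖) ^ 2 := by gcongr; exact norm_inner_le_norm _ _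
        _ = ‖p I (x (p J v))‖ ^ 2 * ‖p I u‖ ^ 2 := by ring
        _ ≤ ‖p I (x (p J v))‖ ^ 2 * η := by gcongr; exact hu I
        _ = _ := by ring
    refine (Finset.sum_le_sum fun I _ => h2 I).trans ?_
    rw [← Finset.mul_sum, pythag hp]
    have h4 : ‖x (p J v)‖ ^ 2 ≤ (‖x‖ * ‖p J v‖) ^ 2 := by gcongr; exact x.le_opNorm _
    rw [mul_pow] at h4
    gcongr
  refine (Finset.sum_le_sum fun J _ => h1 J).trans ?_
  rw [← Finset.mul_sum, ← Finset.mul_sum, pythag hp]
  linarith

end Vale.Agent.P078
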