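import Vale.Agent.Lib.P078.Proj

/-!
# P078: weak limits of bounded families of operators; operators which commute with all projections
of a masa
-/

namespace Vale.Agent.P078

open Filter Topology

variable {H : Type*} [NormedAddCommGroup H] [InnerProductSpace ℂ H] [CompleteSpace H]

/-- Weak operator limits along an ultrafilter. -/
theorem exists_wot_lim {I : Type*} (U : Ultrafilter I) (S : I → H →L[ℂ] H) (M : ℝ)
    (hS : ∀ i, ‖S i‖ ≤ M) :
    ∃ T : H →L[ℂ] H, ‖T‖ ≤ M ∧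
      ∀ u v : H, Tendsto (fun i => inner ℂ (S i u) v) (U : Filter I) (𝓝 (inner ℂ (T u) v)) := by
  have hM : 0 ≤ M := by
    obtain ⟨i⟩ : Nonempty I := (U : Filter I).nonempty_of_neBot
    exact (norm_nonneg _).trans (hS i)
  have hb : ∀ (u v : H) (i : I), ‖inner ℂ (S i u) v‖ ≤ M * ‖u‖ * ‖v‖ := by
    intro u v i
    refine (norm_inner_le_norm _ _).trans ?_
    gcongr
    exact ((S i).le_opNorm u).trans (by gcongr; exact hS i)
  have hex : ∀ u v : H, ∃ z : ℂ,
      Tendsto (fun i => inner ℂ (S i u) v) (U : Filter I) (𝓝 z) := by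
    intro u v
    have hcomp : IsCompact (Metric.closedBall (0 : ℂ) (M * ‖u‖ * ‖v‖)) := isCompact_closedBall _ _
    have hmem : Metric.closedBall (0 : ℂ) (M * ‖u‖ * ‖v‖)
        ∈ (U.map (fun i => inner ℂ (S i u) v) : Filter ℂ) := by
      rw [Ultrafilter.coe_map]
      exact Filter.mem_map.2 (Filter.univ_mem' fun i => by
        simp only [Set.mem_preimage, Metric.mem_closedBall, dist_zero_right]
        exact hb u v i)
    obtain ⟨z, -, hz⟩ := hcomp.ultrafilter_le_nhds (U.map (fun i => inner ℂ (S i u) v))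
      (Filter.le_principal_iff.2 hmem)
    exact ⟨z, hz⟩
  choose L hL using hex
  have hLb : ∀ u v, ‖L u v‖ ≤ M * ‖u‖ * ‖v‖ := by
    intro u v
    exact le_of_tendsto (hL u v).norm (Filter.Eventually.of_forall (hb u v))
  -- the functional `v ↦ L u v`
  let φ : H → StrongDual ℂ H := fun u =>
    LinearMap.mkContinuous
      { toFun := fun v => L u v
        map_add' := fun v w => by
          refine tendsto_nhds_unique (hL u (v + w)) ?_
          have := (hL u v).add (hL u w)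
          simpa only [inner_add_right] using this
        map_smul' := fun c v => by
          refine tendsto_nhds_unique (hL u (c • v)) ?_
          have := (hL u v).const_mul c
          simpa only [inner_smul_right, RingHom.id_apply, smul_eq_mul] using this }
      (M * ‖u‖) (fun v => hLb u v)
  have hφ : ∀ u v, φ u v = L u v := fun u v => rfl
  let T₀ : H →ₗ[ℂ] H :=
    { toFun := fun u => (InnerProductSpace.toDual ℂ H).symm (φ u)
      map_add' := fun u w => by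
        apply ext_inner_right ℂ
        intro v
        rw [inner_add_left, InnerProductSpace.toDual_symm_apply,
          InnerProductSpace.toDual_symm_apply, InnerProductSpace.toDual_symm_apply,
          hφ, hφ, hφ]
        refine tendsto_nhds_unique (hL (u + w) v) ?_
        have := (hL u v).add (hL w v)
        simpa only [map_add, inner_add_left] using this
      map_smul' := fun c u => by
        apply ext_inner_right ℂ
        intro v
        rw [RingHom.id_apply, inner_smul_left, InnerProductSpace.toDual_symm_apply,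
          InnerProductSpace.toDual_symm_apply, hφ, hφ]
        refine tendsto_nhds_unique (hL (c • u) v) ?_
        have := (hL u v).const_mul ((starRingEnd ℂ) c)
        simpa only [map_smul, inner_smul_left] using this }
  have hT₀ : ∀ u, ‖T₀ u‖ ≤ M * ‖u‖ := by
    intro u
    change ‖(InnerProductSpace.toDual ℂ H).symm (φ u)‖ ≤ M * ‖u‖
    rw [LinearIsometryEquiv.norm_map]
    exact LinearMap.mkContinuous_norm_le _ (by positivity) _
  refine ⟨T₀.mkContinuous M hT₀, LinearMap.mkContinuous_norm_le _ hM _, fun u v => ?_⟩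
  have : inner ℂ ((T₀.mkContinuous M hT₀) u) v = L u v := by
    change inner ℂ ((InnerProductSpace.toDual ℂ H).symm (φ u)) v = L u v
    rw [InnerProductSpace.toDual_symm_apply, hφ]
  rw [this]
  exact hL u v

/-- A positive operator bounded by `w` on an invariant subspace is within `w / 2` of `w / 2`. -/
theorem pos_half (P : H →L[ℂ] H) (hP : 0 ≤ P) (K : Submodule ℂ H) (hK : ∀ v ∈ K, P v ∈ K) (w : ℝ)
    (hw : 0 ≤ w) (hb : ∀ v ∈ K, ‖P v‖ ≤ w * ‖v‖) (v : H) (hv : v ∈ K) :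
    ‖P v - ((w / 2 : ℝ) : ℂ) • v‖ ≤ w / 2 * ‖v‖ := by
  obtain ⟨C, hC⟩ := CStarAlgebra.nonneg_iff_eq_star_mul_self.1 hP
  have hin : ∀ x y : H, inner ℂ (P x) y = inner ℂ (C x) (C y) := by
    intro x y
    rw [hC, ContinuousLinearMap.star_eq_adjoint]
    change inner ℂ ((ContinuousLinearMap.adjoint C) (C x)) y = _
    rw [ContinuousLinearMap.adjoint_inner_left]
  set y := P v with hy
  have hyK : y ∈ K := hK v hv
  have h1 : ‖y‖ ^ 2 ≤ ‖C v‖ * ‖C y‖ := by
    have h := hin v y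
    rw [← hy] at h
    have h2 : (‖y‖ ^ 2 : ℝ) = ‖inner ℂ y y‖ := by
      rw [inner_self_eq_norm_sq_to_K]; simp
    rw [h2, h]
    exact norm_inner_le_norm _ _
  have h2 : ‖C y‖ ^ 2 ≤ w * ‖y‖ ^ 2 := by
    have h := hin y y
    have h3 : (‖C y‖ ^ 2 : ℝ) = ‖inner ℂ (C y) (C y)‖ := by
      rw [inner_self_eq_norm_sq_to_K]; simp
    rw [h3, ← h]
    refine (norm_inner_le_norm _ _).trans ?_
    have := hb y hyK
    calc ‖P y‖ * ‖y‖ ≤ w * ‖y‖ * ‖y‖ := by gcongr
      _ = w * ‖y‖ ^ 2 := by ring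
  have h4 : ‖y‖ ^ 2 ≤ w * ‖C v‖ ^ 2 := by
    by_cases hy0 : ‖y‖ = 0
    · rw [hy0]
      have : 0 ≤ w * ‖C v‖ ^ 2 := by positivity
      simpa using this
    · have hypos : 0 < ‖y‖ ^ 2 := by positivity
      have h5 : (‖y‖ ^ 2) ^ 2 ≤ ‖C v‖ ^ 2 * (w * ‖y‖ ^ 2) := by
        calc (‖y‖ ^ 2) ^ 2 ≤ (‖C v‖ * ‖C y‖) ^ 2 := by gcongr
          _ = ‖C v‖ ^ 2 * ‖C y‖ ^ 2 := by ring
          _ ≤ _ := by gcongr
      nlinarith
  have h5 : RCLike.re (inner ℂ y v) = ‖C v‖ ^ 2 := by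
    rw [hy, hin v v, inner_self_eq_norm_sq_to_K]
    norm_cast
  have h6 : ‖y - ((w / 2 : ℝ) : ℂ) • v‖ ^ 2 = ‖y‖ ^ 2 - w * ‖C v‖ ^ 2 + (w / 2) ^ 2 * ‖v‖ ^ 2 := by
    rw [@norm_sub_sq ℂ, inner_smul_right, norm_smul]
    have : RCLike.re (((w / 2 : ℝ) : ℂ) * inner ℂ y v) = w / 2 * ‖C v‖ ^ 2 := by
      rw [← h5]
      simp
    rw [this]
    have h7 : ‖((w / 2 : ℝ) : ℂ)‖ = w / 2 := by
      rw [Complex.norm_real, Real.norm_of_nonneg (by positivity)]
    rw [h7]
    ring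
  have h8 : ‖y - ((w / 2 : ℝ) : ℂ) • v‖ ^ 2 ≤ (w / 2 * ‖v‖) ^ 2 := by
    rw [h6]
    nlinarith
  exact le_of_sq_le_sq h8 (by positivity)

theorem masa_comm {A : VonNeumannAlgebra H} (hc : A.commutant = A) :
    ∀ x ∈ A, ∀ y ∈ A, x * y = y * x := by
  intro x hx y hy
  rw [← hc] at hx
  exact (VonNeumannAlgebra.mem_commutant_iff.1 hx y hy).symm

theorem comm_proj_apply {A : VonNeumannAlgebra H} (hc : A.commutant = A) (T : H →L[ℂ] H)
    (hT : ∀ e ∈ A, IsStarProjection e → e * T = T * e) (K : Submodule ℂ H)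
    [K.HasOrthogonalProjection] (hK : Inv A K) (v : H) (hv : v ∈ K) : T v ∈ K := by
  have hPA : K.starProjection ∈ A := proj_mem hc K hK
  rw [← Submodule.starProjection_eq_self_iff (K := K)]
  have h1 := congrArg (fun S : H →L[ℂ] H => S v) (hT _ hPA isStarProjection_starProjection)
  change K.starProjection (T v) = T (K.starProjection v) at h1
  rw [h1, (Submodule.starProjection_eq_self_iff).2 hv]

theorem sa_apply (S : H →L[ℂ] H) (hS : IsSelfAdjoint S) (x y : H) :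
    inner ℂ (S x) y = inner ℂ x (S y) := by
  rw [IsSelfAdjoint, ContinuousLinearMap.star_eq_adjoint] at hS
  conv_lhs => rw [← hS]
  rw [ContinuousLinearMap.adjoint_inner_left]

theorem posPart_mem {A : VonNeumannAlgebra H} (hc : A.commutant = A) (D : H →L[ℂ] H)
    (hDA : D ∈ A) : D⁺ ∈ A := by
  have ha := masa_comm hc
  rw [← hc, VonNeumannAlgebra.mem_commutant_iff]
  intro g hg
  have h : Commute D g := ha D hDA g hg
  exact (h.cfcₙ_real (fun x : ℝ => x⁺)).eq.symm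

theorem exists_parts {A : VonNeumannAlgebra H} (hc : A.commutant = A) (D : H →L[ℂ] H)
    (hDA : D ∈ A) (hDs : IsSelfAdjoint D) :
    ∃ (R : Submodule ℂ H) (P N : H →L[ℂ] H), Inv A R ∧ 0 ≤ P ∧ 0 ≤ N ∧ P ∈ A ∧ N ∈ A ∧
      (∀ u ∈ Rᗮ, D u = - N u) ∧ ∀ u ∈ Rᗮᗮ, D u = P u := by
  have ha := masa_comm hc
  have hpos : D⁺ - D⁻ = D := CFC.posPart_sub_negPart D hDs
  have hpn : D⁺ * D⁻ = 0 := CFC.posPart_mul_negPart D
  have hp0 : (0 : H →L[ℂ] H) ≤ D⁺ := CFC.posPart_nonneg D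
  have hn0 : (0 : H →L[ℂ] H) ≤ D⁻ := CFC.negPart_nonneg D
  have hps : IsSelfAdjoint D⁺ := IsSelfAdjoint.of_nonneg hp0
  have hns : IsSelfAdjoint D⁻ := IsSelfAdjoint.of_nonneg hn0
  have hpA : D⁺ ∈ A := posPart_mem hc D hDA
  generalize D⁺ = P at *
  generalize D⁻ = N at *
  have hnA : N ∈ A := by
    have : N = P - D := by rw [← hpos]; abel
    rw [this]
    exact sub_mem hpA hDA
  have hDval : ∀ u, D u = P u - N u := by
    intro u
    rw [← hpos]
    rfl
  refine ⟨P.range, P, N, inv_range ha hpA, hp0, hn0, hpA, hnA, ?_, ?_⟩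
  · intro u hu
    have h1 : inner ℂ (P (P u)) u = 0 :=
      (Submodule.mem_orthogonal _ u).1 hu _ ⟨P u, rfl⟩
    rw [sa_apply _ hps] at h1
    rw [hDval, inner_self_eq_zero.1 h1, zero_sub]
  · intro u hu
    have h2 : N (N u) ∈ (P.range)ᗮ := by
      rw [Submodule.mem_orthogonal]
      rintro _ ⟨z, rfl⟩
      have h3 : inner ℂ (P z) (N (N u)) = inner ℂ z ((P * N) (N u)) := by
        rw [sa_apply _ hps]; rfl
      change inner ℂ (P z) (N (N u)) = 0
      rw [h3, hpn]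
      simp
    have h1 : inner ℂ (N (N u)) u = 0 := (Submodule.mem_orthogonal _ u).1 hu _ h2
    rw [sa_apply _ hns] at h1
    rw [hDval, inner_self_eq_zero.1 h1, sub_zero]

theorem ortho_bound (R : Submodule ℂ H) (C : ℝ) (hC : 0 ≤ C) (X : H →L[ℂ] H) (v : H)
    (h1 : X (v - Rᗮ.starProjection v) ∈ Rᗮᗮ) (h2 : X (Rᗮ.starProjection v) ∈ Rᗮ)
    (b1 : ‖X (v - Rᗮ.starProjection v)‖ ≤ C * ‖v - Rᗮ.starProjection v‖)
    (b2 : ‖X (Rᗮ.starProjection v)‖ ≤ C * ‖Rᗮ.starProjection v‖) : ‖X v‖ ≤ C * ‖v‖ := by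
  have hv2R : Rᗮ.starProjection v ∈ Rᗮ := Submodule.starProjection_apply_mem _ v
  have hv1R : v - Rᗮ.starProjection v ∈ Rᗮᗮ := Submodule.sub_starProjection_mem_orthogonal v
  set v2 := Rᗮ.starProjection v with hv2
  set v1 := v - v2 with hv1
  have o1 : inner ℂ (X v1) (X v2) = 0 := by
    rw [← inner_conj_symm, (Submodule.mem_orthogonal _ _).1 h1 _ h2]
    simp
  have o2 : inner ℂ v1 v2 = 0 := by
    rw [← inner_conj_symm, (Submodule.mem_orthogonal _ _).1 hv1R _ hv2R]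
    simp
  have hvsum : v = v1 + v2 := by rw [hv1, sub_add_cancel]
  have n1 : ‖X v‖ ^ 2 = ‖X v1‖ ^ 2 + ‖X v2‖ ^ 2 := by
    rw [hvsum, map_add, sq, sq, sq]
    exact norm_add_sq_eq_norm_sq_add_norm_sq_of_inner_eq_zero _ _ o1
  have n2 : ‖v‖ ^ 2 = ‖v1‖ ^ 2 + ‖v2‖ ^ 2 := by
    conv_lhs => rw [hvsum]
    rw [sq, sq, sq]
    exact norm_add_sq_eq_norm_sq_add_norm_sq_of_inner_eq_zero _ _ o2
  have q1 : ‖X v1‖ ^ 2 ≤ (C * ‖v1‖) ^ 2 := by gcongr
  have q2 : ‖X v2‖ ^ 2 ≤ (C * ‖v2‖) ^ 2 := by gcongr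
  refine le_of_sq_le_sq ?_ (by positivity)
  rw [n1, mul_pow, n2]
  nlinarith

/-- base case -/
theorem comm_base {A : VonNeumannAlgebra H} (hc : A.commutant = A) (T : H →L[ℂ] H)
    (hT : ∀ e ∈ A, IsStarProjection e → e * T = T * e) (b : H →L[ℂ] H)
    (K : Submodule ℂ H) (hKc : IsClosed (K : Set H)) (hK : Inv A K) (c w : ℝ) (hw : 0 ≤ w)
    (hbd : ∀ v ∈ K, ‖b v - (c : ℂ) • v‖ ≤ w * ‖v‖) (v : H) (hv : v ∈ K) :
    ‖(b * T - T * b) v‖ ≤ 2 * ‖T‖ * w * ‖v‖ := by
  have : CompleteSpace K := hKc.completeSpace_coe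
  have hTv : T v ∈ K := comm_proj_apply hc T hT K hK v hv
  have h2 : (b * T - T * b) v = (b (T v) - (c : ℂ) • T v) - T (b v - (c : ℂ) • v) := by
    change b (T v) - T (b v) = _
    rw [map_sub, map_smul]
    abel
  rw [h2]
  refine (norm_sub_le _ _).trans ?_
  have h3 := hbd (T v) hTv
  have h4 : ‖T (b v - (c : ℂ) • v)‖ ≤ ‖T‖ * (w * ‖v‖) :=
    (T.le_opNorm _).trans (by gcongr; exact hbd v hv)
  have h5 : w * ‖T v‖ ≤ w * (‖T‖ * ‖v‖) := by gcongr; exact T.le_opNorm v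
  nlinarith

theorem algebraMap_mem' (A : VonNeumannAlgebra H) (c : ℝ) :
    algebraMap ℝ (H →L[ℂ] H) c ∈ A := by
  have : algebraMap ℝ (H →L[ℂ] H) c = algebraMap ℂ (H →L[ℂ] H) (c : ℂ) := by
    rw [Algebra.algebraMap_eq_smul_one, Algebra.algebraMap_eq_smul_one]
    ext v
    simp
  rw [this]
  exact A.toStarSubalgebra.algebraMap_mem' _

/-- one bisection step -/
theorem comm_step {A : VonNeumannAlgebra H} (hc : A.commutant = A) (T : H →L[ℂ] H)
    (hT : ∀ e ∈ A, IsStarProjection e → e * T = T * e) (b : H →L[ℂ] H) (hb : b ∈ A)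
    (hbs : IsSelfAdjoint b) (C : ℝ) (hC : 0 ≤ C) (c w : ℝ) (hw : 0 ≤ w)
    (ih : ∀ (K : Submodule ℂ H), IsClosed (K : Set H) → Inv A K → ∀ (c : ℝ),
      (∀ v ∈ K, ‖b v - (c : ℂ) • v‖ ≤ w / 2 * ‖v‖) →
      ∀ v ∈ K, ‖(b * T - T * b) v‖ ≤ C * ‖v‖)
    (K : Submodule ℂ H) (hKc : IsClosed (K : Set H)) (hK : Inv A K)
    (hbd : ∀ v ∈ K, ‖b v - (c : ℂ) • v‖ ≤ w * ‖v‖) (v : H) (hv : v ∈ K) :
    ‖(b * T - T * b) v‖ ≤ C * ‖v‖ := by
  have hDs : IsSelfAdjoint (b - algebraMap ℝ (H →L[ℂ] H) c) :=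
    hbs.sub (IsSelfAdjoint.algebraMap _ (IsSelfAdjoint.all c))
  have hDv : ∀ u, (b - algebraMap ℝ (H →L[ℂ] H) c) u = b u - (c : ℂ) • u := by
    intro u
    change b u - (algebraMap ℝ (H →L[ℂ] H) c) u = _
    rw [Algebra.algebraMap_eq_smul_one]
    change b u - c • u = _
    rw [Complex.coe_smul]
  obtain ⟨R, P, N, hRinv, hP0, hN0, hPA, hNA, hz2, hz1⟩ :=
    exists_parts hc _ (sub_mem hb (algebraMap_mem' A c)) hDs
  have hK1i : Inv A (K ⊓ Rᗮᗮ) :=
    fun S hS u hu => ⟨hK S hS u hu.1, inv_orth (inv_orth hRinv) S hS u hu.2⟩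
  have hK2i : Inv A (K ⊓ Rᗮ) := fun S hS u hu => ⟨hK S hS u hu.1, inv_orth hRinv S hS u hu.2⟩
  have hb1 : ∀ u ∈ K ⊓ Rᗮᗮ, ‖b u - ((c + w / 2 : ℝ) : ℂ) • u‖ ≤ w / 2 * ‖u‖ := by
    intro u hu
    have h1 := pos_half P hP0 (K ⊓ Rᗮᗮ) (fun z hz => hK1i _ hPA z hz) w hw (fun z hz => by
      rw [← hz1 z hz.2, hDv]
      exact hbd z hz.1) u hu
    have h3 : b u - ((c + w / 2 : ℝ) : ℂ) • u = P u - ((w / 2 : ℝ) : ℂ) • u := by
      rw [← hz1 u hu.2, hDv]
      push_cast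
      rw [add_smul]
      abel
    rw [h3]
    exact h1
  have hb2 : ∀ u ∈ K ⊓ Rᗮ, ‖b u - ((c - w / 2 : ℝ) : ℂ) • u‖ ≤ w / 2 * ‖u‖ := by
    intro u hu
    have h1 := pos_half N hN0 (K ⊓ Rᗮ) (fun z hz => hK2i _ hNA z hz) w hw (fun z hz => by
      rw [← norm_neg, ← hz2 z hz.2, hDv]
      exact hbd z hz.1) u hu
    have h3 : b u - ((c - w / 2 : ℝ) : ℂ) • u = -(N u - ((w / 2 : ℝ) : ℂ) • u) := by
      have h4 : - N u = b u - (c : ℂ) • u := by rw [← hz2 u hu.2, hDv]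
      rw [neg_sub, sub_eq_add_neg (((w / 2 : ℝ) : ℂ) • u), h4]
      push_cast
      rw [sub_smul]
      abel
    rw [h3, norm_neg]
    exact h1
  have hv2K : Rᗮ.starProjection v ∈ K := hK _ (proj_mem hc _ (inv_orth hRinv)) v hv
  have hv2R : Rᗮ.starProjection v ∈ Rᗮ := Submodule.starProjection_apply_mem _ v
  have hv1K : v - Rᗮ.starProjection v ∈ K := K.sub_mem hv hv2K
  have hv1R : v - Rᗮ.starProjection v ∈ Rᗮᗮ := Submodule.sub_starProjection_mem_orthogonal v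
  have hX : ∀ (L : Submodule ℂ H) [L.HasOrthogonalProjection], Inv A L → ∀ u ∈ L,
      (b * T - T * b) u ∈ L := by
    intro L _ hL u hu
    change b (T u) - T (b u) ∈ L
    exact Submodule.sub_mem _ (hL b hb _ (comm_proj_apply hc T hT _ hL _ hu))
      (comm_proj_apply hc T hT _ hL _ (hL b hb _ hu))
  refine ortho_bound R C hC _ v (hX _ (inv_orth (inv_orth hRinv)) _ hv1R)
    (hX _ (inv_orth hRinv) _ hv2R) ?_ ?_
  · exact ih _ (hKc.inter (Submodule.isClosed_orthogonal _)) hK1i _ hb1 _ ⟨hv1K, hv1R⟩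
  · exact ih _ (hKc.inter (Submodule.isClosed_orthogonal _)) hK2i _ hb2 _ ⟨hv2K, hv2R⟩

/-- An operator which commutes with all projections of a masa commutes with the self-adjoint
elements of the masa. -/
theorem comm_of_comm_proj {A : VonNeumannAlgebra H} (hc : A.commutant = A) (T : H →L[ℂ] H)
    (hT : ∀ e ∈ A, IsStarProjection e → e * T = T * e) (b : H →L[ℂ] H) (hb : b ∈ A)
    (hbs : IsSelfAdjoint b) : b * T = T * b := by
  have key : ∀ k : ℕ, ∀ w : ℝ, 0 ≤ w → ∀ (K : Submodule ℂ H), IsClosed (K : Set H) → Inv A K →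
      ∀ (c : ℝ), (∀ v ∈ K, ‖b v - (c : ℂ) • v‖ ≤ w * ‖v‖) →
      ∀ v ∈ K, ‖(b * T - T * b) v‖ ≤ 2 * ‖T‖ * (w / 2 ^ k) * ‖v‖ := by
    intro k
    induction k with
    | zero =>
      intro w hw K hKc hK c hbd v hv
      simpa using comm_base hc T hT b K hKc hK c w hw hbd v hv
    | succ k ih =>
      intro w hw K hKc hK c hbd v hv
      have hCe : 2 * ‖T‖ * (w / 2 ^ (k + 1)) = 2 * ‖T‖ * (w / 2 / 2 ^ k) := by
        rw [pow_succ]
        field_simp
      rw [hCe]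
      exact comm_step hc T hT b hb hbs _ (by positivity) c w hw
        (fun K hKc hK c => ih (w / 2) (by positivity) K hKc hK c) K hKc hK hbd v hv
  rw [← sub_eq_zero]
  ext v
  have h1 : ∀ k : ℕ, ‖(b * T - T * b) v‖ ≤ 2 * ‖T‖ * (‖b‖ / 2 ^ k) * ‖v‖ := by
    intro k
    refine key k ‖b‖ (norm_nonneg _) ⊤ isClosed_univ (fun _ _ _ _ => trivial) 0 ?_ v trivial
    intro u _
    simpa using b.le_opNorm u
  have h2 : Tendsto (fun k : ℕ => 2 * ‖T‖ * (‖b‖ / 2 ^ k) * ‖v‖) atTop (𝓝 0) := by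
    have h3 : Tendsto (fun k : ℕ => ‖b‖ / (2 : ℝ) ^ k) atTop (𝓝 0) :=
      tendsto_const_nhds.div_atTop (tendsto_pow_atTop_atTop_of_one_lt (by norm_num))
    have := (h3.const_mul (2 * ‖T‖)).mul_const ‖v‖
    simpa using this
  have h4 : ‖(b * T - T * b) v‖ ≤ 0 := ge_of_tendsto' h2 h1
  simpa using h4

/-- An operator which commutes with all projections of a masa belongs to it. -/
theorem mem_of_comm_proj {A : VonNeumannAlgebra H} (hc : A.commutant = A) (T : H →L[ℂ] H)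
    (hT : ∀ e ∈ A, IsStarProjection e → e * T = T * e) : T ∈ A := by
  rw [← hc, VonNeumannAlgebra.mem_commutant_iff]
  intro g hg
  have hre : (g + star g) * T = T * (g + star g) :=
    comm_of_comm_proj hc T hT _ (add_mem hg (star_mem hg)) (IsSelfAdjoint.add_star_self g)
  have him : (Complex.I • (g - star g)) * T = T * (Complex.I • (g - star g)) := by
    refine comm_of_comm_proj hc T hT _ ?_ ?_
    · exact A.toStarSubalgebra.smul_mem (sub_mem hg (star_mem hg)) _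
    · rw [IsSelfAdjoint, star_smul, star_sub, star_star]
      simp only [RCLike.star_def, Complex.conj_I]
      rw [neg_smul, ← smul_neg, neg_sub]
  have him' : (g - star g) * T = T * (g - star g) := by
    have := congrArg (fun S => (-Complex.I) • S) him
    simpa [smul_smul, smul_mul_assoc, mul_smul_comm] using this
  have h3 : ((2 : ℂ) • g) * T = T * ((2 : ℂ) • g) := by
    have e : (2 : ℂ) • g = (g + star g) + (g - star g) := by rw [two_smul]; abel
    rw [e, add_mul, mul_add, hre, him']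
  have := congrArg (fun S => ((2 : ℂ)⁻¹) • S) h3
  simpa [smul_smul, smul_mul_assoc, mul_smul_comm] using this

end Vale.Agent.P078
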